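import Vale.Agent.Lib.P070.Chain

/-!
Functional-calculus lemmas: right fixed points and annihilators, splitting of an element with two
nonzero spectral values, cut-off functions.
-/

namespace Vale.Agent.Lib.P070

universe u

open scoped ComplexOrder InnerProductSpace
open Complex

section CFC

variable {A : Type u} [NonUnitalCStarAlgebra A]

/-- The closed star subalgebra of elements `v` with `v a = v` and `star v a = star v`. -/
def rightFix (a : A) : NonUnitalStarSubalgebra ℂ A where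
  carrier := {v | v * a = v ∧ star v * a = star v}
  add_mem' := by
    rintro x y ⟨h1, h2⟩ ⟨h3, h4⟩
    exact ⟨by rw [add_mul, h1, h3], by rw [star_add, add_mul, h2, h4]⟩
  zero_mem' := by simp
  mul_mem' := by
    rintro x y ⟨h1, h2⟩ ⟨h3, h4⟩
    exact ⟨by rw [mul_assoc, h3], by rw [star_mul, mul_assoc, h2]⟩
  smul_mem' := by
    rintro c x ⟨h1, h2⟩
    exact ⟨by rw [smul_mul_assoc, h1], by rw [star_smul, smul_mul_assoc, h2]⟩
  star_mem' := by
    rintro x ⟨h1, h2⟩
    exact ⟨h2, by rw [star_star]; exact h1⟩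

lemma isClosed_rightFix (a : A) : IsClosed ((rightFix a : NonUnitalStarSubalgebra ℂ A) : Set A) := by
  have : ((rightFix a : NonUnitalStarSubalgebra ℂ A) : Set A) =
      {v | v * a = v} ∩ {v | star v * a = star v} := rfl
  rw [this]
  exact (isClosed_eq (by fun_prop) continuous_id).inter
    (isClosed_eq (by fun_prop) continuous_star)

/-- The closed star subalgebra of elements `v` with `v x = 0` and `star v x = 0`. -/
def rightAnn (x : A) : NonUnitalStarSubalgebra ℂ A where
  carrier := {v | v * x = 0 ∧ star v * x = 0}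
  add_mem' := by
    rintro v w ⟨h1, h2⟩ ⟨h3, h4⟩
    exact ⟨by rw [add_mul, h1, h3, add_zero], by rw [star_add, add_mul, h2, h4, add_zero]⟩
  zero_mem' := by simp
  mul_mem' := by
    rintro v w ⟨h1, h2⟩ ⟨h3, h4⟩
    exact ⟨by rw [mul_assoc, h3, mul_zero], by rw [star_mul, mul_assoc, h2, mul_zero]⟩
  smul_mem' := by
    rintro c v ⟨h1, h2⟩
    exact ⟨by rw [smul_mul_assoc, h1, smul_zero], by rw [star_smul, smul_mul_assoc, h2, smul_zero]⟩
  star_mem' := by
    rintro v ⟨h1, h2⟩
    exact ⟨h2, by rw [star_star]; exact h1⟩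

lemma isClosed_rightAnn (x : A) : IsClosed ((rightAnn x : NonUnitalStarSubalgebra ℂ A) : Set A) := by
  have : ((rightAnn x : NonUnitalStarSubalgebra ℂ A) : Set A) =
      {v | v * x = 0} ∩ {v | star v * x = 0} := rfl
  rw [this]
  exact (isClosed_eq (by fun_prop) continuous_const).inter
    (isClosed_eq (by fun_prop) continuous_const)

/-- If `u` is self-adjoint with `u a = u` then `f(u) a = f(u)`. -/
lemma cfcₙ_mul_fix {u a : A} (hu : IsSelfAdjoint u) (h : u * a = u) (f : ℝ → ℝ) :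
    cfcₙ f u * a = cfcₙ f u := by
  have hcl := isClosed_rightFix a
  have hmem : u ∈ rightFix a := ⟨h, by rw [hu.star_eq]; exact h⟩
  have := cfcₙ_mem (𝕜 := ℝ) (𝕜' := ℂ) (s := rightFix a) f hmem
  exact this.1

/-- If `u v = 0` for self-adjoint `u`, `v`, then `f(u) g(v) = 0`. -/
lemma cfcₙ_mul_cfcₙ_eq_zero {u v : A} (hu : IsSelfAdjoint u) (hv : IsSelfAdjoint v) (h : u * v = 0)
    (f g : ℝ → ℝ) : cfcₙ f u * cfcₙ g v = 0 := by
  have hcl := isClosed_rightAnn v
  have hmem : u ∈ rightAnn v := ⟨h, by rw [hu.star_eq]; exact h⟩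
  have h1 : cfcₙ f u * v = 0 := (cfcₙ_mem (𝕜 := ℝ) (𝕜' := ℂ) (s := rightAnn v) f hmem).1
  -- now use the right annihilator of `star (cfcₙ f u)`
  have hcl2 := isClosed_rightAnn (star (cfcₙ f u))
  have hsa : star (cfcₙ f u) = cfcₙ f u := (IsSelfAdjoint.cfcₙ (R := ℝ)).star_eq
  have hmem2 : v ∈ rightAnn (star (cfcₙ f u)) := by
    have h2 : v * star (cfcₙ f u) = 0 := by
      have := congrArg star h1
      rwa [star_mul, hv.star_eq, star_zero] at this
    exact ⟨h2, by rw [hv.star_eq]; exact h2⟩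
  have h3 := (cfcₙ_mem (𝕜 := ℝ) (𝕜' := ℂ) (s := rightAnn (star (cfcₙ f u))) g hmem2).2
  have h4 : cfcₙ f u * cfcₙ g v = star (star (cfcₙ g v) * star (cfcₙ f u)) := by
    rw [star_mul, star_star, star_star]
  rw [h4, h3, star_zero]

variable [PartialOrder A] [StarOrderedRing A]

/-- A positive element of norm one has `1` in its quasispectrum. -/
lemma one_mem_quasispectrum {w : A} (hw : 0 ≤ w) (hn : ‖w‖ = 1) : (1 : ℝ) ∈ quasispectrum ℝ w := by
  have hsa : IsSelfAdjoint w := IsSelfAdjoint.of_nonneg hw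
  have h := (IsGreatest.norm_cfcₙ (𝕜 := ℝ) (fun x : ℝ => x) w).1
  rw [cfcₙ_id' ℝ w, hn] at h
  obtain ⟨x, hx, hx1⟩ := h
  have hx0 := quasispectrum_nonneg_of_nonneg w hw x hx
  have : x = 1 := by
    simp only [Real.norm_eq_abs, abs_of_nonneg hx0] at hx1
    exact hx1
  rwa [← this]

/-- Lower cut-off function. -/
noncomputable def gF (t : ℝ) : ℝ := max 0 (min 1 (3 * t - 2))
/-- Upper cut-off function. -/
noncomputable def hF (t : ℝ) : ℝ := max 0 (min 1 (3 * t - 1))

lemma continuous_gF : Continuous gF := by unfold gF; fun_prop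
lemma continuous_hF : Continuous hF := by unfold hF; fun_prop
lemma gF_zero : gF 0 = 0 := by norm_num [gF]
lemma hF_zero : hF 0 = 0 := by norm_num [hF]
lemma gF_one : gF 1 = 1 := by norm_num [gF]
lemma gF_nonneg (t : ℝ) : 0 ≤ gF t := le_max_left _ _
lemma hF_nonneg (t : ℝ) : 0 ≤ hF t := le_max_left _ _
lemma gF_le_one (t : ℝ) : gF t ≤ 1 := max_le zero_le_one (min_le_left _ _)
lemma hF_le_one (t : ℝ) : hF t ≤ 1 := max_le zero_le_one (min_le_left _ _)
lemma gF_mul_hF (t : ℝ) : gF t * hF t = gF t := by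
  unfold gF hF
  by_cases h : 3 * t - 2 ≤ 0
  · have : max 0 (min 1 (3 * t - 2)) = 0 := by
      apply max_eq_left
      exact (min_le_right _ _).trans h
    rw [this, zero_mul]
  · push Not at h
    have : max 0 (min 1 (3 * t - 1)) = 1 := by
      rw [min_eq_left (by linarith), max_eq_right zero_le_one]
    rw [this, mul_one]

/-- An auxiliary function with `hF t = t * kF t`. -/
noncomputable def kF (t : ℝ) : ℝ := hF t * (max t (1 / 3))⁻¹

lemma continuous_kF : Continuous kF := by
  unfold kF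
  apply continuous_hF.mul
  apply Continuous.inv₀ (by fun_prop)
  intro t
  have : (1 / 3 : ℝ) ≤ max t (1 / 3) := le_max_right _ _
  have h3 : (0 : ℝ) < 1 / 3 := by norm_num
  exact (lt_of_lt_of_le h3 this).ne'

lemma kF_zero : kF 0 = 0 := by simp [kF, hF_zero]

lemma hF_eq_mul_kF (t : ℝ) : hF t = t * kF t := by
  unfold kF
  by_cases h : 1 / 3 ≤ t
  · rw [max_eq_left h]
    have : t ≠ 0 := by
      have h3 : (0 : ℝ) < 1 / 3 := by norm_num
      exact (lt_of_lt_of_le h3 h).ne'
    field_simp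
  · push Not at h
    have : hF t = 0 := by
      unfold hF
      apply max_eq_left
      refine (min_le_right _ _).trans ?_
      linarith
    rw [this]
    simp

/-- The pair of positive elements produced from a normalized positive element. -/
noncomputable def cutA (w : A) : A := cfcₙ hF w
/-- The pair of positive elements produced from a normalized positive element. -/
noncomputable def cutA' (w : A) : A := cfcₙ gF w

lemma cutA_nonneg {w : A} : 0 ≤ cutA w := cfcₙ_nonneg (fun x _ => hF_nonneg x)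
lemma cutA'_nonneg {w : A} : 0 ≤ cutA' w := cfcₙ_nonneg (fun x _ => gF_nonneg x)

lemma cutA_norm_le {w : A} : ‖cutA w‖ ≤ 1 := by
  apply norm_cfcₙ_le (𝕜 := ℝ)
  intro x _
  rw [Real.norm_of_nonneg (hF_nonneg x)]
  exact hF_le_one x

lemma cutA'_norm_le {w : A} : ‖cutA' w‖ ≤ 1 := by
  apply norm_cfcₙ_le (𝕜 := ℝ)
  intro x _
  rw [Real.norm_of_nonneg (gF_nonneg x)]
  exact gF_le_one x

lemma cutA'_norm {w : A} (hw : 0 ≤ w) (hn : ‖w‖ = 1) : ‖cutA' w‖ = 1 := by
  apply le_antisymm cutA'_norm_le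
  have hsa : IsSelfAdjoint w := IsSelfAdjoint.of_nonneg hw
  have hg := IsGreatest.norm_cfcₙ (𝕜 := ℝ) gF w continuous_gF.continuousOn gF_zero
  have := hg.2 ⟨1, one_mem_quasispectrum hw hn, rfl⟩
  unfold cutA'
  simpa [gF_one] using this

lemma cutA'_mul_cutA {w : A} : cutA' w * cutA w = cutA' w := by
  unfold cutA' cutA
  rw [← cfcₙ_mul gF hF w continuous_gF.continuousOn gF_zero continuous_hF.continuousOn hF_zero]
  congr 1
  funext t
  exact gF_mul_hF t

lemma cutA_mul_fix {w a : A} (hw : IsSelfAdjoint w) (h : w * a = w) : cutA w * a = cutA w :=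
  cfcₙ_mul_fix hw h hF

lemma cutA_orth {u v : A} (hu : IsSelfAdjoint u) (hv : IsSelfAdjoint v) (h : u * v = 0) :
    cutA u * cutA v = 0 := cfcₙ_mul_cfcₙ_eq_zero hu hv h hF hF

/-- The element `cutA w` factors through `w` on the left. -/
lemma cutA_eq_mul {w : A} (hw : IsSelfAdjoint w) : cutA w = w * cfcₙ kF w := by
  have h1 : hF = fun t => (fun x : ℝ => x) t * kF t := by
    funext t; exact hF_eq_mul_kF t
  unfold cutA
  rw [h1, cfcₙ_mul (fun x : ℝ => x) kF w continuous_id.continuousOn rfl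
    continuous_kF.continuousOn kF_zero, cfcₙ_id' ℝ w]

/-- Two distinct nonzero spectral values give orthogonal positive elements. -/
lemma exists_orth_of_two_spec {u a : A} (hu : IsSelfAdjoint u) (h : u * a = u) {s t : ℝ}
    (hs : s ∈ quasispectrum ℝ u) (ht : t ∈ quasispectrum ℝ u) (hs0 : s ≠ 0) (ht0 : t ≠ 0)
    (hst : s ≠ t) :
    ∃ w₀ w₁ : A, 0 ≤ w₀ ∧ 0 ≤ w₁ ∧ w₀ ≠ 0 ∧ w₁ ≠ 0 ∧ w₀ * w₁ = 0 ∧ w₀ * a = w₀ ∧ w₁ * a = w₁ := by
  -- bump functions
  set r : ℝ := min (|s - t| / 2) (min |s| |t|) with hr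
  have hr0 : 0 < r := by
    apply lt_min
    · have : |s - t| > 0 := abs_pos.mpr (sub_ne_zero.mpr hst)
      linarith
    · exact lt_min (abs_pos.mpr hs0) (abs_pos.mpr ht0)
  have hr1 : 2 * r ≤ |s - t| := by
    have := min_le_left (|s - t| / 2) (min |s| |t|)
    linarith
  have hr2 : r ≤ |s| := (min_le_right _ _).trans (min_le_left _ _)
  have hr3 : r ≤ |t| := (min_le_right _ _).trans (min_le_right _ _)
  set fs : ℝ → ℝ := fun x => max 0 (1 - |x - s| / r) with hfs
  set ft : ℝ → ℝ := fun x => max 0 (1 - |x - t| / r) with hft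
  have hfsc : Continuous fs := by rw [hfs]; fun_prop
  have hftc : Continuous ft := by rw [hft]; fun_prop
  have hfs0 : fs 0 = 0 := by
    simp only [hfs, zero_sub, abs_neg]
    apply max_eq_left
    have : 1 ≤ |s| / r := (one_le_div hr0).mpr hr2
    linarith
  have hft0 : ft 0 = 0 := by
    simp only [hft, zero_sub, abs_neg]
    apply max_eq_left
    have : 1 ≤ |t| / r := (one_le_div hr0).mpr hr3
    linarith
  have hprod : ∀ x, fs x * ft x = 0 := by
    intro x
    simp only [hfs, hft]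
    by_cases h1 : 1 - |x - s| / r ≤ 0
    · rw [max_eq_left h1, zero_mul]
    · by_cases h2 : 1 - |x - t| / r ≤ 0
      · rw [max_eq_left h2, mul_zero]
      · exfalso
        push Not at h1 h2
        have h3 : |x - s| < r := by
          have : |x - s| / r < 1 := by linarith
          exact (div_lt_one hr0).mp this
        have h4 : |x - t| < r := by
          have : |x - t| / r < 1 := by linarith
          exact (div_lt_one hr0).mp this
        have h5 : |s - t| ≤ |x - s| + |x - t| := by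
          have : s - t = (x - t) - (x - s) := by ring
          rw [this]
          have := abs_sub (x - t) (x - s)
          linarith
        linarith
  have hw₀ : cfcₙ fs u ≠ 0 := by
    intro h0
    have hg := IsGreatest.norm_cfcₙ (𝕜 := ℝ) fs u hfsc.continuousOn hfs0
    have := hg.2 ⟨s, hs, rfl⟩
    rw [h0, norm_zero] at this
    have h1 : fs s = 1 := by simp [hfs]
    simp only [h1] at this
    norm_num at this
  have hw₁ : cfcₙ ft u ≠ 0 := by
    intro h0
    have hg := IsGreatest.norm_cfcₙ (𝕜 := ℝ) ft u hftc.continuousOn hft0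
    have := hg.2 ⟨t, ht, rfl⟩
    rw [h0, norm_zero] at this
    have h1 : ft t = 1 := by simp [hft]
    simp only [h1] at this
    norm_num at this
  refine ⟨cfcₙ fs u, cfcₙ ft u, cfcₙ_nonneg (fun x _ => le_max_left _ _),
    cfcₙ_nonneg (fun x _ => le_max_left _ _), hw₀, hw₁, ?_, cfcₙ_mul_fix hu h _, cfcₙ_mul_fix hu h _⟩
  rw [← cfcₙ_mul fs ft u hfsc.continuousOn hfs0 hftc.continuousOn hft0]
  have : (fun x => fs x * ft x) = fun _ => (0 : ℝ) := funext hprod
  rw [this]
  exact cfcₙ_const_zero ℝ u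

/-- If there are no orthogonal positive elements fixed by `a` on the right, then each self-adjoint
`u` with `u a = u` has `u * u = τ • u`. -/
lemma quad_of_no_orth {a : A}
    (hno : ¬ ∃ w₀ w₁ : A, 0 ≤ w₀ ∧ 0 ≤ w₁ ∧ w₀ ≠ 0 ∧ w₁ ≠ 0 ∧ w₀ * w₁ = 0 ∧ w₀ * a = w₀ ∧ w₁ * a = w₁)
    {u : A} (hu : IsSelfAdjoint u) (h : u * a = u) : ∃ τ : ℝ, u * u = τ • u := by
  by_cases hex : ∃ τ ∈ quasispectrum ℝ u, τ ≠ 0
  · obtain ⟨τ, hτ, hτ0⟩ := hex
    refine ⟨τ, ?_⟩
    have hall : ∀ x ∈ quasispectrum ℝ u, x * x = τ * x := by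
      intro x hx
      by_cases hx0 : x = 0
      · simp [hx0]
      · by_cases hxτ : x = τ
        · rw [hxτ]
        · exact absurd (exists_orth_of_two_spec hu h hx hτ hx0 hτ0 hxτ) hno
    have h1 : cfcₙ (fun x : ℝ => x * x) u = u * u := by
      rw [cfcₙ_mul (fun x : ℝ => x) (fun x : ℝ => x) u continuous_id.continuousOn rfl
        continuous_id.continuousOn rfl, cfcₙ_id' ℝ u]
    have h2 : cfcₙ (fun x : ℝ => τ * x) u = τ • u := by
      rw [cfcₙ_const_mul τ (fun x : ℝ => x) u continuous_id.continuousOn rfl, cfcₙ_id' ℝ u]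
    rw [← h1, ← h2]
    exact cfcₙ_congr (fun x hx => hall x hx)
  · push Not at hex
    refine ⟨0, ?_⟩
    have h1 : cfcₙ (fun x : ℝ => x) u = cfcₙ (fun _ : ℝ => (0 : ℝ)) u :=
      cfcₙ_congr (fun x hx => hex x hx)
    rw [cfcₙ_id' ℝ u, cfcₙ_const_zero ℝ u] at h1
    rw [h1]
    simp

end CFC

end Vale.Agent.Lib.P070
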