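import Vale.Agent.Lib.P070.Vector

/-!
Under property (N), a family of positive contractions with the finite intersection property on
states has a common fixed unit vector in any irreducible representation.
-/

namespace Vale.Agent.Lib.P070

universe u

open scoped ComplexOrder InnerProductSpace
open Complex

section Chain

variable {A : Type u} [NonUnitalCStarAlgebra A] [PartialOrder A] [StarOrderedRing A]

lemma state_eq_one_of_re {ψ : WeakDual ℂ (Unitization ℂ A)} (hψ : ψ ∈ stateSet (Unitization ℂ A))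
    {t : A} (ht : 0 ≤ t) (h : (ψ (incl t)).re = 1) : ψ (incl t) = 1 := by
  have h0 := hψ.2 _ (incl_nonneg ht)
  apply Complex.ext
  · simpa using h
  · change (ψ (incl t)).im = (1 : ℂ).im
    rw [Complex.one_im]
    exact (Complex.nonneg_iff.mp h0).2.symm

/-- **Common fixed vector theorem.** -/
theorem exists_common_fixed (hN : PropertyN A)
    {H : Type u} [NormedAddCommGroup H] [InnerProductSpace ℂ H] [CompleteSpace H]
    (π : A →⋆ₙₐ[ℂ] (H →L[ℂ] H)) (hπ : IsIrreducibleRep π)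
    {I : Type*} [Nonempty I] (t : I → A) (ht0 : ∀ i, 0 ≤ t i) (ht1 : ∀ i, ‖t i‖ ≤ 1)
    (hfip : ∀ s : Finset I, ∃ ψ ∈ stateSet (Unitization ℂ A), ∀ i ∈ s, ψ (incl (t i)) = 1) :
    ∃ η : H, ‖η‖ = 1 ∧ ∀ i, π (t i) η = η := by
  set F : I → Set (WeakDual ℂ (Unitization ℂ A)) := fun i =>
    {ψ | ψ ∈ stateSet (Unitization ℂ A) ∧ (ψ (incl (t i))).re = 1} with hF
  have hFclosed : ∀ i, IsClosed (F i) := fun i => isClosed_re_eq isClosed_stateSet _ _
  have hFext : ∀ i, IsExtreme ℝ (stateSet (Unitization ℂ A)) (F i) := by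
    intro i
    apply isExtreme_re_eq
    intro ψ hψ
    exact state_re_le_of_norm_le hψ (incl_nonneg (ht0 i)) (by rw [norm_incl]; exact ht1 i)
  have hne : (stateSet (Unitization ℂ A) ∩ ⋂ i, F i).Nonempty := by
    apply isCompact_stateSet.inter_iInter_nonempty F hFclosed
    intro s
    obtain ⟨ψ, hψ, hs⟩ := hfip s
    refine ⟨ψ, hψ, ?_⟩
    simp only [Set.mem_iInter]
    intro i hi
    refine ⟨hψ, ?_⟩
    rw [hs i hi]
    simp
  have hG : IsExtreme ℝ (stateSet (Unitization ℂ A)) (⋂ i, F i) := isExtreme_iInter hFext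
  have hGne : (⋂ i, F i).Nonempty := by
    obtain ⟨ψ, _, h⟩ := hne
    exact ⟨ψ, h⟩
  obtain ⟨φ, hφG, hφ⟩ := exists_extreme_of_isExtreme hG (isClosed_iInter hFclosed) hGne
  have hφ1 : ∀ i, φ (incl (t i)) = 1 := by
    intro i
    have := Set.mem_iInter.mp hφG i
    exact state_eq_one_of_re this.1 (ht0 i) this.2
  obtain ⟨i₀⟩ := ‹Nonempty I›
  obtain ⟨η, hη, hηv⟩ := exists_vector_of_extreme hN π hπ hφ (a₀ := t i₀)
    (by rw [hφ1]; exact one_ne_zero)
  refine ⟨η, hη, fun i => ?_⟩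
  apply fixed_of_inner_eq_one _ _ hη
  · rw [← hηv, hφ1]
  · exact (NonUnitalStarAlgHom.norm_apply_le π (t i)).trans (ht1 i)

/-- If a state takes the value one on a contraction `c`, and `c a = c` for a self-adjoint `a`,
then the state takes the value one at `a`. -/
lemma state_descent {ψ : WeakDual ℂ (Unitization ℂ A)} (hψ : ψ ∈ stateSet (Unitization ℂ A))
    {c a : A} (hc : IsSelfAdjoint c) (ha : IsSelfAdjoint a) (hcn : ‖c‖ ≤ 1) (hca : c * a = c)
    (h : ψ (incl c) = 1) : ψ (incl a) = 1 := by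
  set f := stateToPos ψ hψ with hf
  set ξ := vec f 1 with hξ
  have hξn : ‖ξ‖ = 1 := vec_one_norm f hψ.1
  have hvf : vecFun f.gnsStarAlgHom ξ = ψ := vecFun_vec_one ψ hψ
  have hfix : f.gnsStarAlgHom (incl c) ξ = ξ := by
    apply fixed_of_inner_eq_one _ _ hξn
    · rw [← vecFun_apply, hvf, h]
    · refine (rep_norm_le _ _).trans ?_
      rw [norm_incl]; exact hcn
  have hac : a * c = c := by
    have := congrArg star hca
    rwa [star_mul, ha.star_eq, hc.star_eq] at this
  have h1 : ψ (incl a) = ⟪ξ, f.gnsStarAlgHom (incl a) ξ⟫_ℂ := by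
    rw [← vecFun_apply, hvf]
  have h2 : f.gnsStarAlgHom (incl a) ξ = f.gnsStarAlgHom (incl c) ξ := by
    calc f.gnsStarAlgHom (incl a) ξ
        = f.gnsStarAlgHom (incl a) (f.gnsStarAlgHom (incl c) ξ) := by rw [hfix]
      _ = (f.gnsStarAlgHom (incl a) * f.gnsStarAlgHom (incl c)) ξ := rfl
      _ = f.gnsStarAlgHom (incl c) ξ := by
          rw [← map_mul, ← map_mul, hac]
  rw [h1, h2, hfix, inner_self_eq_norm_sq_to_K, hξn]
  simp

/-- A positive element of norm one has a state taking the value one on it. -/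
lemma exists_state_eq_one {a : A} (ha : 0 ≤ a) (hn : ‖a‖ = 1) :
    ∃ ψ ∈ stateSet (Unitization ℂ A), ψ (incl a) = 1 := by
  obtain ⟨ψ, hψ, h⟩ := exists_state_eq_norm (incl_nonneg ha)
  refine ⟨ψ, hψ, ?_⟩
  rw [h, norm_incl, hn]
  simp

/-- Under (N) every irreducible representation is faithful. -/
theorem rep_injective (hN : PropertyN A)
    {H : Type u} [NormedAddCommGroup H] [InnerProductSpace ℂ H] [CompleteSpace H]
    (π : A →⋆ₙₐ[ℂ] (H →L[ℂ] H)) (hπ : IsIrreducibleRep π) : Function.Injective π := by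
  rw [injective_iff_map_eq_zero]
  intro a hπa
  by_contra hne
  have hx : star a * a ≠ 0 := by
    intro h
    exact hne (CStarRing.star_mul_self_eq_zero_iff a |>.mp h)
  have hxn : 0 < ‖star a * a‖ := norm_pos_iff.mpr hx
  set t : A := (‖star a * a‖⁻¹ : ℝ) • (star a * a) with ht
  have ht0 : 0 ≤ t := smul_nonneg (by positivity) (star_mul_self_nonneg a)
  have htn : ‖t‖ = 1 := by
    rw [ht, norm_smul, Real.norm_of_nonneg (by positivity)]
    field_simp
  obtain ⟨ψ, hψ, hψ1⟩ := exists_state_eq_one ht0 htn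
  obtain ⟨η, hη, hfix⟩ := exists_common_fixed hN π hπ (I := Unit) (fun _ => t) (fun _ => ht0)
    (fun _ => htn.le) (fun s => ⟨ψ, hψ, fun _ _ => hψ1⟩)
  have h0 : π t = 0 := by
    rw [ht]
    have h1 : (‖star a * a‖⁻¹ : ℝ) • (star a * a) = ((‖star a * a‖⁻¹ : ℝ) : ℂ) • (star a * a) :=
      (Complex.coe_smul _ _).symm
    rw [h1, map_smul, map_mul, hπa, mul_zero, smul_zero]
  have h2 := hfix ()
  rw [h0] at h2
  have h3 : η = 0 := by
    rw [← h2]; rfl
  rw [h3, norm_zero] at hη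
  exact zero_ne_one hη

end Chain

end Vale.Agent.Lib.P070
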