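import Vale.Agent.Lib.P070.Tree

/-!
If some element has nonzero image of rank at most one, then under property (N) the representation
is an isomorphism onto the compact operators.
-/

namespace Vale.Agent.Lib.P070

universe u

open scoped ComplexOrder InnerProductSpace
open Complex InnerProductSpace

section Finite

variable {H : Type*} [NormedAddCommGroup H] [InnerProductSpace ℂ H] [CompleteSpace H]

/-- A closed subspace containing all rank-one operators contains all compact operators. -/
lemma compact_mem_of_rankOne (R : Submodule ℂ (H →L[ℂ] H)) (hRc : IsClosed (R : Set (H →L[ℂ] H)))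
    (hR : ∀ u v : H, rankOne ℂ u v ∈ R) {T : H →L[ℂ] H} (hT : IsCompactOperator T) : T ∈ R := by
  have hmem : T ∈ closure (R : Set (H →L[ℂ] H)) := by
    rw [Metric.mem_closure_iff]
    intro ε hε
    have hK := hT.isCompact_closure_image_closedBall (1 : ℝ)
    obtain ⟨t, -, htf, hcov⟩ := hK.finite_cover_balls (half_pos hε)
    set V : Submodule ℂ H := Submodule.span ℂ t with hV
    have hVfd : FiniteDimensional ℂ V := FiniteDimensional.span_of_finite ℂ htf
    set f := stdOrthonormalBasis ℂ V with hf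
    set F : H →L[ℂ] H :=
      ∑ j, rankOne ℂ ((f j : V) : H) (ContinuousLinearMap.adjoint T ((f j : V) : H)) with hF
    have hFR : F ∈ R := Submodule.sum_mem _ (fun j _ => hR _ _)
    refine ⟨F, hFR, ?_⟩
    have hFx : ∀ x, F x = V.starProjection (T x) := by
      intro x
      have h1 : F x = ∑ j, ⟪((f j : V) : H), T x⟫_ℂ • ((f j : V) : H) := by
        rw [hF, sum_apply]
        apply Finset.sum_congr rfl
        intro j _
        rw [rankOne_apply, ContinuousLinearMap.adjoint_inner_left]
      rw [h1]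
      have h2 : (V.orthogonalProjectionOnto (T x) : V) =
          ∑ j, ⟪((f j : V) : H), T x⟫_ℂ • (f j : V) := by
        have := (f.sum_repr' (V.orthogonalProjectionOnto (T x))).symm
        rw [this]
        apply Finset.sum_congr rfl
        intro j _
        congr 1
        rw [Submodule.inner_orthogonalProjectionOnto_eq_of_mem_left]
      have h3 : V.starProjection (T x) = ((V.orthogonalProjectionOnto (T x) : V) : H) := rfl
      rw [h3, h2]
      simp
    have hnorm : ‖T - F‖ ≤ ε / 2 := by
      apply ContinuousLinearMap.opNorm_le_of_unit_norm (half_pos hε).le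
      intro x hx
      have hxK : T x ∈ closure (T '' Metric.closedBall (0 : H) 1) := by
        apply subset_closure
        exact ⟨x, by simp [hx], rfl⟩
      have hy := hcov hxK
      simp only [Set.mem_iUnion, Metric.mem_ball, exists_prop] at hy
      obtain ⟨y, hyt, hyd⟩ := hy
      have hyV : y ∈ V := Submodule.subset_span hyt
      rw [sub_apply, hFx]
      have h5 : ‖T x - V.starProjection (T x)‖ ≤ ‖T x - y‖ := by
        rw [Submodule.starProjection_minimal]
        exact ciInf_le ⟨0, fun _ ⟨_, h⟩ => h ▸ norm_nonneg _⟩ (⟨y, hyV⟩ : V)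
      rw [dist_eq_norm] at hyd
      linarith
    rw [dist_eq_norm]
    linarith
  rw [hRc.closure_eq] at hmem
  exact hmem

/-- A noncompact operator stays away from zero on the orthogonal complement of each
finite-dimensional subspace. -/
lemma exists_unit_of_not_compact {T : H →L[ℂ] H} (hT : ¬ IsCompactOperator T) :
    ∃ c : ℝ, 0 < c ∧ ∀ V : Submodule ℂ H, FiniteDimensional ℂ V →
      ∃ x : H, ‖x‖ = 1 ∧ x ∈ Vᗮ ∧ c ≤ ‖T x‖ := by
  by_contra hcon
  push Not at hcon
  apply hT
  have hclosed : IsClosed {S : H →L[ℂ] H | IsCompactOperator S} :=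
    isClosed_setOfPred_isCompactOperator
  have hmem : T ∈ closure {S : H →L[ℂ] H | IsCompactOperator S} := by
    rw [Metric.mem_closure_iff]
    intro ε hε
    obtain ⟨V, hV, hVb⟩ := hcon (ε / 2) (half_pos hε)
    have hP : IsCompactOperator (V.starProjection : H →L[ℂ] H) := by
      have hlc : LocallyCompactSpace V := by
        have := FiniteDimensional.proper_rclike ℂ V
        infer_instance
      have h1 : IsCompactOperator (V.orthogonalProjectionOnto : H →L[ℂ] V) :=
        isCompactOperator_of_locallyCompactSpace_dom _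
      exact h1.clm_comp V.subtypeL
    refine ⟨T ∘L V.starProjection, hP.clm_comp T, ?_⟩
    have hnorm : ‖T - T ∘L V.starProjection‖ ≤ ε / 2 := by
      apply ContinuousLinearMap.opNorm_le_of_unit_norm (half_pos hε).le
      intro x hx
      set z := x - V.starProjection x with hz
      have hzV : z ∈ Vᗮ := Submodule.sub_starProjection_mem_orthogonal x
      have h1 : (T - T ∘L V.starProjection) x = T z := by
        rw [hz, map_sub]
        rfl
      rw [h1]
      have hzn : ‖z‖ ≤ 1 := by
        have h2 : ‖z‖ ^ 2 ≤ ‖x‖ ^ 2 := by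
          have h3 : x = z + V.starProjection x := by rw [hz]; abel
          have h4 := norm_add_sq_eq_norm_sq_add_norm_sq_of_inner_eq_zero z (V.starProjection x) (by
            have : ⟪z, V.starProjection x⟫_ℂ = 0 :=
              Submodule.inner_left_of_mem_orthogonal (Submodule.starProjection_apply_mem V x) hzV
            simpa using this)
          rw [← h3] at h4
          nlinarith [norm_nonneg (V.starProjection x)]
        rw [hx] at h2
        have := norm_nonneg z
        nlinarith
      by_cases hz0 : z = 0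
      · rw [hz0, map_zero, norm_zero]
        exact (half_pos hε).le
      · have hzpos : 0 < ‖z‖ := norm_pos_iff.mpr hz0
        set w : H := ((‖z‖⁻¹ : ℝ) : ℂ) • z with hw
        have hwn : ‖w‖ = 1 := by
          rw [hw, norm_smul, Complex.norm_real, Real.norm_of_nonneg (by positivity)]
          field_simp
        have hwV : w ∈ Vᗮ := Submodule.smul_mem _ _ hzV
        have h5 := (hVb w hwn hwV).le
        have h6 : T z = (‖z‖ : ℂ) • T w := by
          rw [hw, map_smul, smul_smul]
          have : (‖z‖ : ℂ) * ((‖z‖⁻¹ : ℝ) : ℂ) = 1 := by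
            push_cast
            have : (‖z‖ : ℂ) ≠ 0 := by exact_mod_cast hzpos.ne'
            field_simp
          rw [this, one_smul]
        rw [h6, norm_smul, Complex.norm_real, Real.norm_of_nonneg (norm_nonneg _)]
        calc ‖z‖ * ‖T w‖ ≤ 1 * (ε / 2) := mul_le_mul hzn h5 (norm_nonneg _) zero_le_one
          _ = ε / 2 := one_mul _
    rw [dist_eq_norm]
    linarith
  rw [hclosed.closure_eq] at hmem
  exact hmem

end Finite

section Rep

variable {A : Type u} [NonUnitalCStarAlgebra A]
variable {H : Type u} [NormedAddCommGroup H] [InnerProductSpace ℂ H] [CompleteSpace H]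

/-- The range of a representation as a linear subspace. -/
noncomputable def repRange (π : A →⋆ₙₐ[ℂ] (H →L[ℂ] H)) : Submodule ℂ (H →L[ℂ] H) :=
  LinearMap.range
    ({ toFun := fun a => π a
       map_add' := fun a b => map_add π a b
       map_smul' := fun c a => map_smul π c a } : A →ₗ[ℂ] (H →L[ℂ] H))

lemma mem_repRange {π : A →⋆ₙₐ[ℂ] (H →L[ℂ] H)} {T : H →L[ℂ] H} :
    T ∈ repRange π ↔ ∃ a, π a = T := Iff.rfl

lemma isClosed_repRange {π : A →⋆ₙₐ[ℂ] (H →L[ℂ] H)} (hinj : Function.Injective π) :
    IsClosed (repRange π : Set (H →L[ℂ] H)) := by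
  have hiso : Isometry π := AddMonoidHomClass.isometry_of_norm π (NonUnitalStarAlgHom.norm_map π hinj)
  have : (repRange π : Set (H →L[ℂ] H)) = Set.range π := rfl
  rw [this]
  exact hiso.isClosedEmbedding.isClosed_range

lemma continuous_rankOne_left (v : H) : Continuous (fun u : H => rankOne ℂ u v) :=
  (ContinuousLinearMap.flip (rankOne ℂ : H →L[ℂ] H →L⋆[ℂ] H →L[ℂ] H) v).continuous

lemma continuous_rankOne_right (u : H) : Continuous (fun v : H => rankOne ℂ u v) :=
  (rankOne ℂ u).continuous

lemma inner_nu_rep_star' [PartialOrder A] [StarOrderedRing A] (π : A →⋆ₙₐ[ℂ] (H →L[ℂ] H)) (u v : H) (c : A) :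
    ⟪π (star c) u, v⟫_ℂ = ⟪u, π c v⟫_ℂ := by
  rw [inner_nu_rep_star, star_star]

/-- From an element of rank at most one, all rank-one operators are in the range. -/
lemma rankOne_mem_range [PartialOrder A] [StarOrderedRing A] {π : A →⋆ₙₐ[ℂ] (H →L[ℂ] H)}
    (hπ : IsIrreducibleRep π) (hinj : Function.Injective π) {b : A} (hb : π b ≠ 0) {e : H}
    (he : ∀ v, π b v ∈ Submodule.span ℂ {e}) (u v : H) : rankOne ℂ u v ∈ repRange π := by
  have hRc := isClosed_repRange hinj
  have hen : e ≠ 0 := by
    rintro rfl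
    apply hb
    ext v
    have := he v
    simpa using this
  have hnpos : 0 < ‖e‖ := norm_pos_iff.mpr hen
  set e₁ : H := ((‖e‖⁻¹ : ℝ) : ℂ) • e with he₁
  have he₁n : ‖e₁‖ = 1 := by
    rw [he₁, norm_smul, Complex.norm_real, Real.norm_of_nonneg (by positivity)]
    field_simp
  have he₁ne : e₁ ≠ 0 := by
    intro h
    rw [h, norm_zero] at he₁n
    exact zero_ne_one he₁n
  have hform : ∀ v, π b v = ⟪e₁, π b v⟫_ℂ • e₁ := by
    intro v
    obtain ⟨c, hc⟩ := Submodule.mem_span_singleton.mp (he v)
    have h1 : e = (‖e‖ : ℂ) • e₁ := by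
      rw [he₁, smul_smul]
      have : (‖e‖ : ℂ) * ((‖e‖⁻¹ : ℝ) : ℂ) = 1 := by
        push_cast
        have : (‖e‖ : ℂ) ≠ 0 := by exact_mod_cast hnpos.ne'
        field_simp
      rw [this, one_smul]
    have h2 : π b v = (c * (‖e‖ : ℂ)) • e₁ := by
      rw [← hc, mul_smul, ← h1]
    rw [h2, inner_smul_right, inner_self_eq_norm_sq_to_K, he₁n]
    simp
  set g : H := π (star b) e₁ with hg
  have hrank : ∀ v, π b v = ⟪g, v⟫_ℂ • e₁ := by
    intro v
    rw [hg, inner_nu_rep_star']
    exact hform v
  have hgne : g ≠ 0 := by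
    intro h0
    apply hb
    ext v
    rw [hrank v, h0]
    simp
  have hbase : ∀ c d : A, rankOne ℂ (π c e₁) (π d g) ∈ repRange π := by
    intro c d
    refine mem_repRange.mpr ⟨c * b * star d, ?_⟩
    ext x
    rw [rankOne_apply, map_mul, map_mul]
    change π c (π b (π (star d) x)) = _
    rw [hrank (π (star d) x), map_smul, ← inner_nu_rep_star π g x d]
  have hstep : ∀ (u : H) (d : A), rankOne ℂ u (π d g) ∈ repRange π := by
    intro u d
    have hcl : IsClosed {u : H | rankOne ℂ u (π d g) ∈ repRange π} :=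
      hRc.preimage (continuous_rankOne_left _)
    exact (dense_orbit hπ he₁ne).induction_on u hcl (fun c => hbase c d)
  have hcl : IsClosed {v : H | rankOne ℂ u v ∈ repRange π} :=
    hRc.preimage (continuous_rankOne_right u)
  exact (dense_orbit hπ hgne).induction_on v hcl (fun d => hstep u d)

/-- A star homomorphism with all rank-one operators in its range has compact image, under (N). -/
theorem rep_compact [PartialOrder A] [StarOrderedRing A] (hN : PropertyN A)
    {π : A →⋆ₙₐ[ℂ] (H →L[ℂ] H)} (hπ : IsIrreducibleRep π) (hinj : Function.Injective π)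
    (hR : ∀ u v : H, rankOne ℂ u v ∈ repRange π) (a : A) : IsCompactOperator (π a) := by
  by_contra hT
  obtain ⟨c, hc, hV⟩ := exists_unit_of_not_compact hT
  set πt : Unitization ℂ A →⋆ₐ[ℂ] (H →L[ℂ] H) := Unitization.starLift π with hπt
  have hlift : ∀ y : A, πt (incl y) = π y := by
    intro y
    have h := congrArg (fun f : A →⋆ₙₐ[ℂ] (H →L[ℂ] H) => f y)
      (Unitization.starLift.symm_apply_apply π)
    exact h
  have hvf : ∀ (x : H) (y : A), vecFun πt x (incl y) = ⟪x, π y x⟫_ℂ := by
    intro x y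
    rw [vecFun_apply, hlift]
  -- generators
  let Gen : Submodule ℂ H → Set (WeakDual ℂ (Unitization ℂ A)) := fun V =>
    {φ | ∃ x : H, ‖x‖ = 1 ∧ x ∈ Vᗮ ∧ c ≤ ‖π a x‖ ∧ φ = vecFun πt x}
  have hGenS : ∀ V, Gen V ⊆ stateSet (Unitization ℂ A) := by
    rintro V φ ⟨x, hx, -, -, rfl⟩
    exact vecFun_mem_stateSet πt hx
  have hClS : ∀ V, closure (Gen V) ⊆ stateSet (Unitization ℂ A) := fun V =>
    closure_minimal (hGenS V) isClosed_stateSet
  -- the limit state
  let I := {V : Submodule ℂ H // FiniteDimensional ℂ V}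
  have hInst : Nonempty I := ⟨⟨⊥, inferInstance⟩⟩
  have hdir : Directed (fun x1 x2 => x1 ⊇ x2) (fun i : I => closure (Gen i.1)) := by
    intro i j
    have hfd : FiniteDimensional ℂ (i.1 ⊔ j.1 : Submodule ℂ H) := by
      have := i.2
      have := j.2
      infer_instance
    refine ⟨⟨i.1 ⊔ j.1, hfd⟩, ?_, ?_⟩
    · apply closure_mono
      rintro φ ⟨x, hx, hxV, hxc, rfl⟩
      exact ⟨x, hx, Submodule.orthogonal_le le_sup_left hxV, hxc, rfl⟩
    · apply closure_mono
      rintro φ ⟨x, hx, hxV, hxc, rfl⟩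
      exact ⟨x, hx, Submodule.orthogonal_le le_sup_right hxV, hxc, rfl⟩
  have hne : ∀ i : I, (closure (Gen i.1)).Nonempty := by
    intro i
    obtain ⟨x, hx, hxV, hxc⟩ := hV i.1 i.2
    exact ⟨_, subset_closure ⟨x, hx, hxV, hxc, rfl⟩⟩
  have hcomp : ∀ i : I, IsCompact (closure (Gen i.1)) := fun i =>
    isCompact_stateSet.of_isClosed_subset isClosed_closure (hClS i.1)
  obtain ⟨ψ, hψ⟩ := IsCompact.nonempty_iInter_of_directed_nonempty_isCompact_isClosed
    (fun i : I => closure (Gen i.1)) hdir hne hcomp (fun _ => isClosed_closure)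
  rw [Set.mem_iInter] at hψ
  have hψS : ψ ∈ stateSet (Unitization ℂ A) := hClS ⊥ (hψ ⟨⊥, inferInstance⟩)
  -- lower bound on `star a * a`
  set y : Unitization ℂ A := incl (star a * a) with hy
  have hψy : c ^ 2 ≤ (ψ y).re := by
    have hcl : IsClosed {φ : WeakDual ℂ (Unitization ℂ A) | c ^ 2 ≤ (φ y).re} :=
      isClosed_le continuous_const (Complex.continuous_re.comp (WeakDual.eval_continuous y))
    have hsub : Gen ⊥ ⊆ {φ : WeakDual ℂ (Unitization ℂ A) | c ^ 2 ≤ (φ y).re} := by
      rintro φ ⟨x, hx, -, hxc, rfl⟩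
      change c ^ 2 ≤ (vecFun πt x y).re
      rw [hy, hvf, map_mul]
      change c ^ 2 ≤ (⟪x, π (star a) (π a x)⟫_ℂ).re
      rw [← inner_nu_rep_star π x (π a x) a, inner_self_eq_norm_sq_to_K]
      have h1 : c ^ 2 ≤ ‖π a x‖ ^ 2 := by
        have := norm_nonneg (π a x)
        nlinarith
      simpa [← Complex.ofReal_pow] using h1
    exact closure_minimal hsub hcl (hψ ⟨⊥, inferInstance⟩)
  have hcpos : 0 < c ^ 2 := by positivity
  -- the rank one projections
  let J : Set A := {j | ∃ e : H, ‖e‖ = 1 ∧ π j = rankOne ℂ e e}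
  have hJ0 : ∀ j ∈ J, 0 ≤ j := by
    rintro j ⟨e, he, hje⟩
    have hs : star j = j := hinj (by
      rw [map_star, hje, ContinuousLinearMap.star_eq_adjoint, InnerProductSpace.adjoint_rankOne])
    have hi : star j * j = j := hinj (by
      rw [map_mul, map_star, hje, ContinuousLinearMap.star_eq_adjoint,
        InnerProductSpace.adjoint_rankOne]
      exact (InnerProductSpace.isIdempotentElem_rankOne_self he).eq)
    rw [← hi]
    exact star_mul_self_nonneg j
  have hJψ : ∀ j ∈ J, ψ (incl j) = 0 := by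
    rintro j ⟨e, he, hje⟩
    set V : Submodule ℂ H := Submodule.span ℂ {e} with hVdef
    have hfd : FiniteDimensional ℂ V := FiniteDimensional.span_singleton ℂ e
    have hcl : IsClosed {φ : WeakDual ℂ (Unitization ℂ A) | φ (incl j) = 0} :=
      isClosed_eq (WeakDual.eval_continuous (incl j)) continuous_const
    have hsub : Gen V ⊆ {φ : WeakDual ℂ (Unitization ℂ A) | φ (incl j) = 0} := by
      rintro φ ⟨x, hx, hxV, -, rfl⟩
      change vecFun πt x (incl j) = 0
      have hxe : ⟪e, x⟫_ℂ = 0 :=
        Submodule.inner_right_of_mem_orthogonal (Submodule.mem_span_singleton_self e) hxV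
      rw [hvf, hje, rankOne_apply, hxe, zero_smul, inner_zero_right]
    exact closure_minimal hsub hcl (hψ ⟨V, hfd⟩)
  -- the face
  set S := stateSet (Unitization ℂ A) with hS
  have hFace : ∀ j ∈ J, IsExtreme ℝ S {φ | φ ∈ S ∧ (φ (incl (-j))).re = 0} := by
    intro j hj
    apply isExtreme_re_eq
    intro φ hφ
    have h0 := hφ.2 _ (incl_nonneg (hJ0 j hj))
    rw [map_neg, map_neg, Complex.neg_re]
    have := (Complex.nonneg_iff.mp h0).1
    linarith
  set G : Set (WeakDual ℂ (Unitization ℂ A)) :=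
    {φ | φ ∈ S ∧ ∀ j ∈ J, (φ (incl (-j))).re = 0} with hG
  have hGext : IsExtreme ℝ S G := by
    refine ⟨fun φ hφ => hφ.1, ?_⟩
    intro φ₁ hφ₁ φ₂ hφ₂ z hz hseg
    refine ⟨hφ₁, fun j hj => ?_⟩
    exact ((hFace j hj).2 hφ₁ hφ₂ ⟨hz.1, hz.2 j hj⟩ hseg).2
  have hGcl : IsClosed G := by
    have : G = S ∩ ⋂ j ∈ J, {φ | (φ (incl (-j))).re = 0} := by
      ext φ
      simp [hG]
    rw [this]
    refine isClosed_stateSet.inter (isClosed_biInter fun j _ => ?_)
    exact isClosed_eq (Complex.continuous_re.comp (WeakDual.eval_continuous _)) continuous_const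
  have hψG : ψ ∈ G := by
    refine ⟨hψS, fun j hj => ?_⟩
    rw [map_neg, map_neg, hJψ j hj]
    simp
  have hGcomp : IsCompact G := isCompact_stateSet.of_isClosed_subset hGcl hGext.1
  obtain ⟨φ₀, hφ₀, hmax⟩ := hGcomp.exists_isMaxOn ⟨ψ, hψG⟩
    (f := fun φ : WeakDual ℂ (Unitization ℂ A) => (φ y).re)
    (Complex.continuous_re.comp (WeakDual.eval_continuous y)).continuousOn
  set m : ℝ := (φ₀ y).re with hm
  have hmpos : 0 < m := lt_of_lt_of_le hcpos (hψy.trans (hmax hψG))
  have hG'ext : IsExtreme ℝ S {φ | φ ∈ G ∧ (φ y).re = m} :=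
    hGext.trans (isExtreme_re_eq G y m (fun φ hφ => hmax hφ))
  obtain ⟨φ, hφG, hφex⟩ := exists_extreme_of_isExtreme hG'ext (isClosed_re_eq hGcl y m)
    ⟨φ₀, hφ₀, rfl⟩
  have hφy : φ (incl (star a * a)) ≠ 0 := by
    intro h0
    have h1 : (φ y).re = m := hφG.2
    rw [hy, h0] at h1
    simp at h1
    linarith
  obtain ⟨η, hη, hφη⟩ := exists_vector_of_extreme hN π hπ hφex hφy
  obtain ⟨j, hj⟩ := mem_repRange.mp (hR η η)
  have hjJ : j ∈ J := ⟨η, hη, hj⟩
  have h0 := hφG.1.2 j hjJ
  rw [hφη, map_neg, hj] at h0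
  simp [inner_self_eq_norm_sq_to_K, hη] at h0

end Rep

end Vale.Agent.Lib.P070
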