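import Mathlib

/-!
Definitions for Naimark's problem: irreducible representations of a C*-algebra on a Hilbert space,
unitary equivalence, and property (N).
-/

namespace Vale.Agent.Lib.P070

universe u v w

/-- A representation `π` of the C*-algebra `A` on the Hilbert space `H` is irreducible when it is
nonzero and the only closed `π(A)`-invariant subspaces of `H` are `0` and `H`. -/
def IsIrreducibleRep {A : Type u} [NonUnitalCStarAlgebra A]
    {H : Type v} [NormedAddCommGroup H] [InnerProductSpace ℂ H] [CompleteSpace H]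
    (π : A →⋆ₙₐ[ℂ] (H →L[ℂ] H)) : Prop :=
  (∃ a, π a ≠ 0) ∧
    ∀ K : Submodule ℂ H, IsClosed (K : Set H) → (∀ a, ∀ x ∈ K, π a x ∈ K) → K = ⊥ ∨ K = ⊤

/-- Two representations are unitarily equivalent when a unitary between the Hilbert spaces
intertwines them. -/
def UnitarilyEquivalent {A : Type u} [NonUnitalCStarAlgebra A]
    {H : Type v} [NormedAddCommGroup H] [InnerProductSpace ℂ H] [CompleteSpace H]
    {K : Type w} [NormedAddCommGroup K] [InnerProductSpace ℂ K] [CompleteSpace K]
    (π : A →⋆ₙₐ[ℂ] (H →L[ℂ] H)) (σ : A →⋆ₙₐ[ℂ] (K →L[ℂ] K)) : Prop :=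
  ∃ U : H ≃ₗᵢ[ℂ] K, ∀ a x, U (π a x) = σ a (U x)

/-- Property (N): `A ≠ 0` and any two irreducible representations of `A` (on Hilbert spaces in the
universe of `A`, which is no restriction since an irreducible representation is cyclic) are
unitarily equivalent. -/
def PropertyN (A : Type u) [NonUnitalCStarAlgebra A] : Prop :=
  Nontrivial A ∧
    ∀ (H : Type u) [NormedAddCommGroup H] [InnerProductSpace ℂ H] [CompleteSpace H]
      (K : Type u) [NormedAddCommGroup K] [InnerProductSpace ℂ K] [CompleteSpace K]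
      (π : A →⋆ₙₐ[ℂ] (H →L[ℂ] H)) (σ : A →⋆ₙₐ[ℂ] (K →L[ℂ] K)),
      IsIrreducibleRep π → IsIrreducibleRep σ → UnitarilyEquivalent π σ

end Vale.Agent.Lib.P070
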