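import Vale.Agent.Lib.P070.Compact

/-!
The dichotomy for algebras with property (N).
-/

namespace Vale.Agent.Lib.P070

universe u

open scoped ComplexOrder InnerProductSpace
open Complex InnerProductSpace

section Main

variable {A : Type u} [NonUnitalCStarAlgebra A]
variable {H : Type u} [NormedAddCommGroup H] [InnerProductSpace ℂ H] [CompleteSpace H]

/-- **The dichotomy.** Let `A` have property (N) and let `π` be an irreducible representation of
`A` on `H`. Either `π` is an isomorphism of `A` onto the compact operators on `H`, or the range of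
every nonzero element of `π(A)` contains an orthonormal family indexed by the Cantor set. -/
theorem dichotomy (hN : PropertyN A) (π : A →⋆ₙₐ[ℂ] (H →L[ℂ] H)) (hπ : IsIrreducibleRep π) :
    (Function.Injective π ∧ Set.range π = {T : H →L[ℂ] H | IsCompactOperator T}) ∨
      ∀ a : A, a ≠ 0 → ∃ η : (ℕ → Bool) → H, Orthonormal ℂ η ∧ ∀ x, η x ∈ Set.range (π a) := by
  let _ : PartialOrder A := CStarAlgebra.spectralOrder A
  have : StarOrderedRing A := CStarAlgebra.spectralOrderedRing A
  have hinj := rep_injective hN π hπ
  rcases cantor_or_rank hN π hπ with ⟨b, hb, e, he⟩ | h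
  · left
    refine ⟨hinj, ?_⟩
    have hR : ∀ u v : H, rankOne ℂ u v ∈ repRange π := rankOne_mem_range hπ hinj hb he
    ext T
    constructor
    · rintro ⟨a, rfl⟩
      exact rep_compact hN hπ hinj hR a
    · intro hT
      exact mem_repRange.mp (compact_mem_of_rankOne (repRange π) (isClosed_repRange hinj) hR hT)
  · exact Or.inr h

/-- If the range of a nonzero `π a` lies in the closure of a set of size below the continuum, then
the second alternative of the dichotomy fails. -/
lemma continuum_le_of_orthonormal {η : (ℕ → Bool) → H} (hη : Orthonormal ℂ η) {S : Set H}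
    (hS : ∀ x, η x ∈ closure S) : Cardinal.continuum ≤ Cardinal.mk S := by
  have hsep : ∀ x y, x ≠ y → (1 : ℝ) ≤ ‖η x - η y‖ := by
    intro x y hxy
    have h1 : ‖η x - η y‖ ^ 2 = 2 := by
      have h2 := @norm_sub_sq ℂ H _ _ _ (η x) (η y)
      rw [hη.2 hxy, hη.1, hη.1] at h2
      rw [h2]
      simp
      norm_num
    nlinarith [norm_nonneg (η x - η y)]
  have hpick : ∀ x, ∃ s : S, ‖η x - s‖ < 1 / 2 := by
    intro x
    obtain ⟨s, hs, hd⟩ := Metric.mem_closure_iff.mp (hS x) (1 / 2) (by norm_num)
    exact ⟨⟨s, hs⟩, by rwa [dist_eq_norm] at hd⟩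
  choose f hf using hpick
  have hinj : Function.Injective f := by
    intro x y hxy
    by_contra hne
    have h1 := hsep x y hne
    have h2 := hf x
    have h3 := hf y
    rw [← hxy] at h3
    have h4 : ‖η x - η y‖ ≤ ‖η x - f x‖ + ‖η y - f x‖ := by
      have : η x - η y = (η x - f x) - (η y - f x) := by abel
      rw [this]
      exact norm_sub_le _ _
    linarith
  have h5 := Cardinal.lift_mk_le_lift_mk_of_injective hinj
  have h6 : Cardinal.mk (ℕ → Bool) = Cardinal.continuum := by
    simp
  rw [h6] at h5
  simpa using h5

end Main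

end Vale.Agent.Lib.P070
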