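import Vale.Agent.Lib.P070.States

/-!
Vector functionals of representations; the GNS representation of an extreme state is irreducible.
-/

namespace Vale.Agent.Lib.P070

open scoped ComplexOrder InnerProductSpace
open Complex

section Vector

variable {B : Type*} [CStarAlgebra B]
variable {H : Type*} [NormedAddCommGroup H] [InnerProductSpace ℂ H] [CompleteSpace H]

lemma rep_norm_le (π : B →⋆ₐ[ℂ] (H →L[ℂ] H)) (b : B) : ‖π b‖ ≤ ‖b‖ :=
  NonUnitalStarAlgHom.norm_apply_le (π : B →⋆ₙₐ[ℂ] (H →L[ℂ] H)) b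

/-- The vector functional `b ↦ ⟪v, π b v⟫` of a unital representation. -/
noncomputable def vecFun (π : B →⋆ₐ[ℂ] (H →L[ℂ] H)) (v : H) : WeakDual ℂ B :=
  WeakDual.toStrongDual.symm
    (LinearMap.mkContinuous
      { toFun := fun b => ⟪v, π b v⟫_ℂ
        map_add' := fun a b => by simp
        map_smul' := fun c a => by simp }
      (‖v‖ * ‖v‖) (fun b => by
        calc ‖⟪v, π b v⟫_ℂ‖ ≤ ‖v‖ * ‖π b v‖ := norm_inner_le_norm _ _
          _ ≤ ‖v‖ * (‖π b‖ * ‖v‖) := by gcongr; exact (π b).le_opNorm v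
          _ ≤ ‖v‖ * (‖b‖ * ‖v‖) := by gcongr; exact rep_norm_le π b
          _ = ‖v‖ * ‖v‖ * ‖b‖ := by ring))

lemma vecFun_apply (π : B →⋆ₐ[ℂ] (H →L[ℂ] H)) (v : H) (b : B) :
    vecFun π v b = ⟪v, π b v⟫_ℂ := rfl

lemma inner_rep_star_mul (π : B →⋆ₐ[ℂ] (H →L[ℂ] H)) (v w : H) (s t : B) :
    ⟪v, π (star s * t) w⟫_ℂ = ⟪π s v, π t w⟫_ℂ := by
  rw [map_mul, map_star, ContinuousLinearMap.star_eq_adjoint]
  simp [ContinuousLinearMap.adjoint_inner_right]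

lemma inner_rep_star (π : B →⋆ₐ[ℂ] (H →L[ℂ] H)) (u x : H) (b : B) :
    ⟪u, π b x⟫_ℂ = ⟪π (star b) u, x⟫_ℂ := by
  rw [map_star, ContinuousLinearMap.star_eq_adjoint, ContinuousLinearMap.adjoint_inner_left]

variable [PartialOrder B] [StarOrderedRing B]

lemma vecFun_nonneg (π : B →⋆ₐ[ℂ] (H →L[ℂ] H)) (v : H) {x : B} (hx : 0 ≤ x) :
    0 ≤ vecFun π v x := by
  obtain ⟨s, rfl⟩ := CStarAlgebra.nonneg_iff_eq_star_mul_self.mp hx
  rw [vecFun_apply, inner_rep_star_mul, inner_self_eq_norm_sq_to_K]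
  norm_cast
  positivity

lemma vecFun_mem_stateSet (π : B →⋆ₐ[ℂ] (H →L[ℂ] H)) {v : H} (hv : ‖v‖ = 1) :
    vecFun π v ∈ stateSet B := by
  refine ⟨?_, fun x hx => vecFun_nonneg π v hx⟩
  rw [vecFun_apply, map_one]
  change ⟪v, v⟫_ℂ = 1
  rw [inner_self_eq_norm_sq_to_K, hv]
  simp

/-- **A cyclic representation whose vector state is extreme is irreducible.** -/
theorem irreducible_of_extreme (π : B →⋆ₐ[ℂ] (H →L[ℂ] H)) {ξ : H} (hξn : ‖ξ‖ = 1)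
    (hcyc : ∀ u : H, (∀ b, ⟪π b ξ, u⟫_ℂ = 0) → u = 0)
    (hφ : vecFun π ξ ∈ (stateSet B).extremePoints ℝ)
    (K : Submodule ℂ H) (hK : IsClosed (K : Set H))
    (hinv : ∀ b, ∀ x ∈ K, π b x ∈ K) : K = ⊥ ∨ K = ⊤ := by
  have : CompleteSpace K := hK.completeSpace_coe
  obtain ⟨ξ₁, hξ₁, ξ₂, hξ₂, hdec⟩ := Submodule.exists_add_mem_mem_orthogonal (K := K) ξ
  have hinv' : ∀ b, ∀ x ∈ Kᗮ, π b x ∈ Kᗮ := by
    intro b x hx
    rw [Submodule.mem_orthogonal]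
    intro u hu
    rw [inner_rep_star]
    exact (Submodule.mem_orthogonal _ _).mp hx _ (hinv _ u hu)
  by_cases h1 : ξ₁ = 0
  · -- the cyclic vector is orthogonal to `K`
    left
    rw [eq_bot_iff]
    intro u hu
    rw [Submodule.mem_bot]
    apply hcyc
    intro b
    have h3 : π b ξ ∈ Kᗮ := by
      apply hinv'
      rw [hdec, h1, zero_add]
      exact hξ₂
    rw [← inner_conj_symm, (Submodule.mem_orthogonal _ _).mp h3 u hu, map_zero]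
  by_cases h2 : ξ₂ = 0
  · -- the cyclic vector lies in `K`
    right
    have h3 : ξ ∈ K := by
      rw [hdec, h2, add_zero]; exact hξ₁
    have h4 : Kᗮ = ⊥ := by
      rw [eq_bot_iff]
      intro u hu
      rw [Submodule.mem_bot]
      apply hcyc
      intro b
      exact (Submodule.mem_orthogonal _ _).mp hu _ (hinv _ _ h3)
    exact (Submodule.orthogonal_eq_bot_iff).mp h4
  exfalso
  have horth : ⟪ξ₁, ξ₂⟫_ℂ = 0 := (Submodule.mem_orthogonal _ _).mp hξ₂ _ hξ₁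
  have hn1 : 0 < ‖ξ₁‖ := norm_pos_iff.mpr h1
  have hn2 : 0 < ‖ξ₂‖ := norm_pos_iff.mpr h2
  have hsum : ‖ξ₁‖ ^ 2 + ‖ξ₂‖ ^ 2 = 1 := by
    have := norm_add_sq_eq_norm_sq_add_norm_sq_of_inner_eq_zero ξ₁ ξ₂ (by simpa using horth)
    rw [← hdec, hξn] at this
    nlinarith
  -- the decomposition of the state
  have hcross : ∀ x, vecFun π ξ x = ⟪ξ₁, π x ξ₁⟫_ℂ + ⟪ξ₂, π x ξ₂⟫_ℂ := by
    intro x
    rw [vecFun_apply, hdec]
    simp only [map_add, inner_add_left, inner_add_right]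
    have h3 : ⟪ξ₁, π x ξ₂⟫_ℂ = 0 := (Submodule.mem_orthogonal _ _).mp (hinv' x ξ₂ hξ₂) _ hξ₁
    have h4 : ⟪ξ₂, π x ξ₁⟫_ℂ = 0 := by
      rw [← inner_conj_symm, (Submodule.mem_orthogonal _ _).mp hξ₂ _ (hinv x ξ₁ hξ₁), map_zero]
    rw [h3, h4]
    ring
  set t : ℝ := ‖ξ₁‖ ^ 2 with ht
  have ht0 : 0 < t := by positivity
  have ht1 : 0 < 1 - t := by
    have : 0 < ‖ξ₂‖ ^ 2 := by positivity
    linarith
  set u₁ : H := ((‖ξ₁‖⁻¹ : ℝ) : ℂ) • ξ₁ with hu₁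
  set u₂ : H := ((‖ξ₂‖⁻¹ : ℝ) : ℂ) • ξ₂ with hu₂
  have hu₁n : ‖u₁‖ = 1 := by
    rw [hu₁, norm_smul, Complex.norm_real, Real.norm_of_nonneg (by positivity)]
    field_simp
  have hu₂n : ‖u₂‖ = 1 := by
    rw [hu₂, norm_smul, Complex.norm_real, Real.norm_of_nonneg (by positivity)]
    field_simp
  have hval₁ : ∀ x, (t : ℂ) * vecFun π u₁ x = ⟪ξ₁, π x ξ₁⟫_ℂ := by
    intro x
    rw [vecFun_apply, hu₁, map_smul, inner_smul_left, inner_smul_right, ht]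
    have : (‖ξ₁‖ : ℂ) ≠ 0 := by exact_mod_cast hn1.ne'
    simp only [Complex.conj_ofReal]
    push_cast
    field_simp
  have hval₂ : ∀ x, ((1 - t : ℝ) : ℂ) * vecFun π u₂ x = ⟪ξ₂, π x ξ₂⟫_ℂ := by
    intro x
    have h1t : (1 - t) = ‖ξ₂‖ ^ 2 := by rw [ht]; linarith
    rw [vecFun_apply, hu₂, map_smul, inner_smul_left, inner_smul_right, h1t]
    have : (‖ξ₂‖ : ℂ) ≠ 0 := by exact_mod_cast hn2.ne'
    simp only [Complex.conj_ofReal]
    push_cast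
    field_simp
  have hseg : vecFun π ξ ∈ openSegment ℝ (vecFun π u₁) (vecFun π u₂) := by
    refine ⟨t, 1 - t, ht0, ht1, by ring, ?_⟩
    apply DFunLike.ext
    intro x
    rw [hcross x, ← hval₁, ← hval₂]
    rfl
  have hext := (mem_extremePoints.mp hφ).2 _ (vecFun_mem_stateSet π hu₁n) _
    (vecFun_mem_stateSet π hu₂n) hseg
  -- `ψ₁ = t φ`
  have hψ : ∀ x, ⟪ξ₁, π x ξ₁⟫_ℂ = (t : ℂ) * vecFun π ξ x := by
    intro x
    rw [← hval₁, hext.1]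
  have hkey : ξ₁ = (t : ℂ) • ξ := by
    rw [← sub_eq_zero]
    apply hcyc
    intro c
    rw [inner_sub_right, inner_smul_right, sub_eq_zero]
    have h3 : ⟪π c ξ₂, ξ₁⟫_ℂ = 0 := by
      rw [← inner_conj_symm, (Submodule.mem_orthogonal _ _).mp (hinv' c ξ₂ hξ₂) _ hξ₁, map_zero]
    have h4 : ⟪π c ξ, ξ₁⟫_ℂ = ⟪π c ξ₁, ξ₁⟫_ℂ := by
      rw [hdec, map_add, inner_add_left, h3, add_zero]
    have h5 : ⟪π c ξ₁, ξ₁⟫_ℂ = ⟪ξ₁, π (star c) ξ₁⟫_ℂ := by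
      rw [inner_rep_star, star_star]
    have h6 : vecFun π ξ (star c) = ⟪π c ξ, ξ⟫_ℂ := by
      rw [vecFun_apply, inner_rep_star, star_star]
    rw [h4, h5, hψ, h6]
  -- conclude
  have h7 : ((1 - t : ℝ) : ℂ) • ξ₁ = (t : ℂ) • ξ₂ := by
    have h8 : ξ₁ = (t : ℂ) • (ξ₁ + ξ₂) := by rw [← hdec]; exact hkey
    rw [smul_add] at h8
    have h9 : ((1 - t : ℝ) : ℂ) • ξ₁ = ξ₁ - (t : ℂ) • ξ₁ := by
      push_cast
      rw [sub_smul, one_smul]
    rw [h9]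
    exact sub_eq_of_eq_add' h8
  have h10 : ⟪ξ₁, ((1 - t : ℝ) : ℂ) • ξ₁⟫_ℂ = 0 := by
    rw [h7, inner_smul_right, horth, mul_zero]
  rw [inner_smul_right, inner_self_eq_norm_sq_to_K] at h10
  have h11 : ((1 - t : ℝ) : ℂ) ≠ 0 := by exact_mod_cast ht1.ne'
  have h12 : ((‖ξ₁‖ : ℂ)) ^ 2 ≠ 0 := by
    have : (‖ξ₁‖ : ℂ) ≠ 0 := by exact_mod_cast hn1.ne'
    exact pow_ne_zero _ this
  exact (mul_ne_zero h11 h12) h10

end Vector

section GNS

variable {B : Type*} [CStarAlgebra B] [PartialOrder B] [StarOrderedRing B]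

/-- A state as a positive linear map. -/
noncomputable def stateToPos (φ : WeakDual ℂ B) (hφ : φ ∈ stateSet B) : B →ₚ[ℂ] ℂ :=
  PositiveLinearMap.mk₀ (WeakDual.toStrongDual φ : B →L[ℂ] ℂ).toLinearMap hφ.2

lemma stateToPos_apply (φ : WeakDual ℂ B) (hφ : φ ∈ stateSet B) (b : B) :
    stateToPos φ hφ b = φ b := rfl

/-- The class of an algebra element in the GNS space. -/
noncomputable def vec (f : B →ₚ[ℂ] ℂ) (b : B) : f.GNS :=
  ((f.toPreGNS b : f.PreGNS) : UniformSpace.Completion f.PreGNS)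

lemma inner_vec (f : B →ₚ[ℂ] ℂ) (a b : B) : ⟪vec f a, vec f b⟫_ℂ = f (star a * b) := by
  rw [vec, vec, UniformSpace.Completion.inner_coe]
  rfl

lemma denseRange_vec (f : B →ₚ[ℂ] ℂ) : DenseRange (vec f) := by
  have h1 : DenseRange ((↑) : f.PreGNS → UniformSpace.Completion f.PreGNS) :=
    UniformSpace.Completion.denseRange_coe
  exact h1.comp f.toPreGNS.surjective.denseRange (UniformSpace.Completion.continuous_coe _)

lemma gns_apply_vec (f : B →ₚ[ℂ] ℂ) (a b : B) : f.gnsStarAlgHom a (vec f b) = vec f (a * b) := by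
  change f.gnsNonUnitalStarAlgHom a _ = _
  rw [vec, PositiveLinearMap.gnsNonUnitalStarAlgHom_apply_coe]
  rfl

lemma eq_zero_of_inner_vec (f : B →ₚ[ℂ] ℂ) {u : f.GNS} (h : ∀ b, ⟪vec f b, u⟫_ℂ = 0) : u = 0 := by
  have h2 : ∀ w : f.GNS, ⟪w, u⟫_ℂ = 0 := by
    intro w
    have hcl : IsClosed {w : f.GNS | ⟪w, u⟫_ℂ = 0} :=
      isClosed_eq (by fun_prop) continuous_const
    exact (denseRange_vec f).induction_on w hcl h
  exact inner_self_eq_zero.mp (h2 u)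

lemma vec_one_norm (f : B →ₚ[ℂ] ℂ) (hf : f 1 = 1) : ‖vec f 1‖ = 1 := by
  have h : ⟪vec f 1, vec f 1⟫_ℂ = 1 := by
    rw [inner_vec, star_one, one_mul, hf]
  rw [inner_self_eq_norm_sq_to_K] at h
  have h2 : ‖vec f 1‖ ^ 2 = 1 := by
    have : ((‖vec f 1‖ ^ 2 : ℝ) : ℂ) = 1 := by
      push_cast
      exact h
    exact_mod_cast this
  have h3 := norm_nonneg (vec f 1)
  nlinarith

lemma vecFun_vec_one (φ : WeakDual ℂ B) (hφ : φ ∈ stateSet B) :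
    vecFun (stateToPos φ hφ).gnsStarAlgHom (vec (stateToPos φ hφ) 1) = φ := by
  apply DFunLike.ext
  intro x
  rw [vecFun_apply, gns_apply_vec, mul_one, inner_vec, star_one, one_mul, stateToPos_apply]

end GNS

end Vale.Agent.Lib.P070
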