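import Vale.Agent.Lib.P070.Cfc

/-!
Elements all of whose compressions are quadratic are proportional, and the rank-one consequence
in an irreducible representation.
-/

namespace Vale.Agent.Lib.P070

universe u

open scoped ComplexOrder InnerProductSpace
open Complex

section Quad

variable {A : Type u} [NonUnitalCStarAlgebra A]

/-- Self-adjoint quadratic elements with quadratic sum and difference are linearly dependent. -/
lemma quad_dep {u v : A} (hu : IsSelfAdjoint u) (hv : IsSelfAdjoint v) {t₁ t₂ t₃ t₄ : ℝ}
    (h1 : u * u = t₁ • u) (h2 : v * v = t₂ • v) (h3 : (u + v) * (u + v) = t₃ • (u + v))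
    (h4 : (u - v) * (u - v) = t₄ • (u - v)) :
    ∃ α β : ℝ, (α ≠ 0 ∨ β ≠ 0) ∧ α • u + β • v = 0 := by
  by_contra hcon
  have hind : ∀ α β : ℝ, α • u + β • v = 0 → α = 0 ∧ β = 0 := by
    intro α β h
    by_contra hne
    apply hcon
    refine ⟨α, β, ?_, h⟩
    by_contra hne2
    push Not at hne2
    exact hne hne2
  -- expansion
  have e3 : u * u + u * v + v * u + v * v = t₃ • (u + v) := by
    rw [← h3]; noncomm_ring
  have e4 : u * u - u * v - v * u + v * v = t₄ • (u - v) := by
    rw [← h4]; noncomm_ring
  rw [h1, h2] at e3 e4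
  have e5 : (t₃ + t₄ - 2 * t₁) • u + (t₃ - t₄ - 2 * t₂) • v = 0 := by
    linear_combination (norm := module) -e3 - e4
  obtain ⟨h6, h7⟩ := hind _ _ e5
  have h8 : t₃ = t₁ + t₂ := by linarith
  have hS : u * v + v * u = t₂ • u + t₁ • v := by
    rw [h8] at e3
    linear_combination (norm := module) e3
  -- `u v u = t₁ t₂ u`
  have huvu : u * (v * u) = (t₁ * t₂) • u := by
    have h9 := congrArg (fun x => u * x) hS
    simp only [mul_add, mul_smul_comm, ← mul_assoc] at h9
    rw [h1] at h9
    simp only [smul_mul_assoc, mul_assoc, h1, smul_smul] at h9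
    linear_combination (norm := module) h9
  have hvuv : v * (u * v) = (t₁ * t₂) • v := by
    have h9 := congrArg (fun x => v * x) hS
    simp only [mul_add, mul_smul_comm, ← mul_assoc] at h9
    rw [h2] at h9
    simp only [smul_mul_assoc, mul_assoc, h2, smul_smul] at h9
    linear_combination (norm := module) h9
  -- `u v = t₂ u`
  have huv : u * v = t₂ • u := by
    set r : A := t₂ • u - u * v with hr
    have hrs : star r = t₂ • u - v * u := by
      rw [hr, star_sub, star_smul, star_mul, hu.star_eq, hv.star_eq]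
      simp
    have hr0 : r * star r = 0 := by
      rw [hrs, hr]
      have e1 : (t₂ • u - u * v) * (t₂ • u - v * u)
          = (t₂ * t₂) • (u * u) - t₂ • (u * (v * u)) - t₂ • (u * (v * u)) + u * ((v * v) * u) := by
        simp only [sub_mul, mul_sub, smul_mul_assoc, mul_smul_comm, mul_assoc]
        module
      rw [e1, h1, huvu, h2]
      simp only [smul_mul_assoc, mul_smul_comm, huvu, smul_smul]
      module
    have := (CStarRing.mul_star_self_eq_zero_iff r).mp hr0
    rw [hr, sub_eq_zero] at this
    exact this.symm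
  have hvu : v * u = t₁ • v := by
    set r : A := t₁ • v - v * u with hr
    have hrs : star r = t₁ • v - u * v := by
      rw [hr, star_sub, star_smul, star_mul, hu.star_eq, hv.star_eq]
      simp
    have hr0 : r * star r = 0 := by
      rw [hrs, hr]
      have e1 : (t₁ • v - v * u) * (t₁ • v - u * v)
          = (t₁ * t₁) • (v * v) - t₁ • (v * (u * v)) - t₁ • (v * (u * v)) + v * ((u * u) * v) := by
        simp only [sub_mul, mul_sub, smul_mul_assoc, mul_smul_comm, mul_assoc]
        module
      rw [e1, h2, hvuv, h1]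
      simp only [smul_mul_assoc, mul_smul_comm, hvuv, smul_smul]
      module
    have := (CStarRing.mul_star_self_eq_zero_iff r).mp hr0
    rw [hr, sub_eq_zero] at this
    exact this.symm
  -- compare via the star
  have hstar : v * u = t₂ • u := by
    have := congrArg star huv
    rw [star_mul, hu.star_eq, hv.star_eq, star_smul, hu.star_eq] at this
    simpa using this
  have hfin : t₂ • u + (-t₁) • v = 0 := by
    rw [hvu] at hstar
    rw [← hstar]
    module
  obtain ⟨h10, h11⟩ := hind _ _ hfin
  have ht1 : t₁ = 0 := by linarith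
  have h12 : u * u = 0 := by rw [h1, ht1, zero_smul]
  have h13 : u = 0 := by
    have : star u * u = 0 := by rw [hu.star_eq]; exact h12
    exact (CStarRing.star_mul_self_eq_zero_iff u).mp this
  have h14 := hind 1 0 (by rw [h13]; simp)
  exact one_ne_zero h14.1

variable [PartialOrder A] [StarOrderedRing A]

/-- If no orthogonal pair is fixed on the right by `a` and `a' a = a'`, all compressions by `a'`
are multiples of `a' a' a'`. -/
lemma compress_proportional {a a' : A} (ha' : IsSelfAdjoint a') (hne : a' ≠ 0) (hp : a' * a = a')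
    (hno : ¬ ∃ w₀ w₁ : A, 0 ≤ w₀ ∧ 0 ≤ w₁ ∧ w₀ ≠ 0 ∧ w₁ ≠ 0 ∧ w₀ * w₁ = 0 ∧ w₀ * a = w₀ ∧ w₁ * a = w₁)
    (z : A) : ∃ l : ℂ, a' * z * a' = l • (a' * a' * a') := by
  set v : A := a' * a' * a' with hv
  have hvne : v ≠ 0 := by
    intro h0
    have h1 : (a' * a') * (a' * a') = 0 := by
      have : (a' * a') * (a' * a') = a' * v := by rw [hv]; noncomm_ring
      rw [this, h0, mul_zero]
    have h2 : a' * a' = 0 := by
      have h3 : star (a' * a') * (a' * a') = 0 := by
        rw [star_mul, ha'.star_eq]; exact h1
      exact (CStarRing.star_mul_self_eq_zero_iff _).mp h3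
    have h4 : star a' * a' = 0 := by rw [ha'.star_eq]; exact h2
    exact hne ((CStarRing.star_mul_self_eq_zero_iff _).mp h4)
  have hcomp : ∀ x : A, IsSelfAdjoint x → IsSelfAdjoint (a' * x * a') := by
    intro x hx
    rw [IsSelfAdjoint, star_mul, star_mul, ha'.star_eq, hx.star_eq, mul_assoc]
  have hfix : ∀ x : A, (a' * x * a') * a = a' * x * a' := by
    intro x
    rw [mul_assoc, hp]
  have hquad : ∀ x : A, IsSelfAdjoint x → ∃ τ : ℝ, (a' * x * a') * (a' * x * a') = τ • (a' * x * a') :=
    fun x hx => quad_of_no_orth hno (hcomp x hx) (hfix x)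
  have hreal : ∀ x : A, IsSelfAdjoint x → ∃ l : ℝ, a' * x * a' = l • v := by
    intro x hx
    obtain ⟨t₁, h1⟩ := hquad x hx
    obtain ⟨t₂, h2⟩ := hquad a' ha'
    obtain ⟨t₃, h3⟩ := hquad (x + a') (hx.add ha')
    obtain ⟨t₄, h4⟩ := hquad (x - a') (hx.sub ha')
    have e3 : a' * (x + a') * a' = a' * x * a' + v := by rw [hv]; noncomm_ring
    have e4 : a' * (x - a') * a' = a' * x * a' - v := by rw [hv]; noncomm_ring
    rw [e3] at h3
    rw [e4] at h4
    obtain ⟨α, β, hαβ, hdep⟩ := quad_dep (hcomp x hx) (hcomp a' ha') h1 h2 h3 h4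
    by_cases hα : α = 0
    · exfalso
      rw [hα, zero_smul, zero_add] at hdep
      have hβ : β ≠ 0 := by
        rcases hαβ with h | h
        · exact absurd hα h
        · exact h
      rcases smul_eq_zero.mp hdep with h | h
      · exact hβ h
      · exact hvne h
    · refine ⟨-β / α, ?_⟩
      have : a' * x * a' = α⁻¹ • (α • (a' * x * a')) := by
        rw [smul_smul, inv_mul_cancel₀ hα, one_smul]
      rw [this, eq_neg_of_add_eq_zero_left hdep, smul_neg, ← neg_smul, smul_smul]
      congr 1
      field_simp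
  -- general `z`
  obtain ⟨l₁, h1⟩ := hreal _ (realPart z).2
  obtain ⟨l₂, h2⟩ := hreal _ (imaginaryPart z).2
  refine ⟨(l₁ : ℂ) + Complex.I * (l₂ : ℂ), ?_⟩
  have hz := realPart_add_I_smul_imaginaryPart z
  have : a' * z * a' = a' * (realPart z : A) * a' + Complex.I • (a' * (imaginaryPart z : A) * a') := by
    conv_lhs => rw [← hz]
    simp only [mul_add, add_mul, mul_smul_comm, smul_mul_assoc]
  rw [this, h1, h2, add_smul, mul_smul, Complex.coe_smul, Complex.coe_smul]

end Quad

section Irr

variable {A : Type u} [NonUnitalCStarAlgebra A]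
variable {H : Type*} [NormedAddCommGroup H] [InnerProductSpace ℂ H] [CompleteSpace H]

/-- The orbit of a nonzero vector under an irreducible representation is dense. -/
lemma dense_orbit {π : A →⋆ₙₐ[ℂ] (H →L[ℂ] H)} (hπ : IsIrreducibleRep π) {y : H} (hy : y ≠ 0) :
    DenseRange (fun z : A => π z y) := by
  -- the vectors killed by `π`
  have hkill : ∃ z, π z y ≠ 0 := by
    by_contra hcon
    push Not at hcon
    let K' : Submodule ℂ H :=
      { carrier := {x | ∀ z, π z x = 0}
        add_mem' := fun {a b} ha hb z => by rw [map_add, ha z, hb z, add_zero]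
        zero_mem' := fun z => map_zero _
        smul_mem' := fun c x hx z => by rw [map_smul, hx z, smul_zero] }
    have hK'c : IsClosed (K' : Set H) := by
      have : (K' : Set H) = ⋂ z, {x | π z x = 0} := by
        ext x
        simp [K']
      rw [this]
      exact isClosed_iInter fun z => isClosed_eq (π z).continuous continuous_const
    have hK'i : ∀ a, ∀ x ∈ K', π a x ∈ K' := by
      intro a x hx z
      have hx' : ∀ w, π w x = 0 := hx
      rw [hx' a]
      exact map_zero _
    rcases hπ.2 K' hK'c hK'i with h | h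
    · have : y ∈ K' := hcon
      rw [h, Submodule.mem_bot] at this
      exact hy this
    · obtain ⟨a, ha⟩ := hπ.1
      apply ha
      ext x
      have : x ∈ K' := by rw [h]; exact Submodule.mem_top
      exact this a
  let L : A →ₗ[ℂ] H :=
    { toFun := fun z => π z y
      map_add' := fun a b => by simp
      map_smul' := fun c a => by simp }
  set K : Submodule ℂ H := (LinearMap.range L).topologicalClosure with hK
  have hKc : IsClosed (K : Set H) := Submodule.isClosed_topologicalClosure _
  have hKi : ∀ a, ∀ x ∈ K, π a x ∈ K := by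
    intro a x hx
    have hcont : Continuous (π a) := (π a).continuous
    have hx' : x ∈ closure (LinearMap.range L : Set H) := hx
    have h1 := map_mem_closure hcont hx' (t := (LinearMap.range L : Set H)) (by
      rintro w ⟨z, rfl⟩
      refine ⟨a * z, ?_⟩
      change π (a * z) y = π a (π z y)
      rw [map_mul]
      rfl)
    exact h1
  rcases hπ.2 K hKc hKi with h | h
  · exfalso
    obtain ⟨z, hz⟩ := hkill
    apply hz
    have : π z y ∈ K := Submodule.le_topologicalClosure _ ⟨z, rfl⟩
    rw [h, Submodule.mem_bot] at this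
    exact this
  · intro x
    have hx : x ∈ K := by rw [h]; exact Submodule.mem_top
    have hx' : x ∈ closure (LinearMap.range L : Set H) := hx
    exact hx'

/-- Under the hypotheses of `compress_proportional`, the image of `a'` has rank at most one. -/
lemma rank_le_one [PartialOrder A] [StarOrderedRing A] {π : A →⋆ₙₐ[ℂ] (H →L[ℂ] H)}
    (hπ : IsIrreducibleRep π) {a a' : A} (ha' : IsSelfAdjoint a') (hne : a' ≠ 0)
    (hp : a' * a = a') (hπne : π a' ≠ 0)
    (hno : ¬ ∃ w₀ w₁ : A, 0 ≤ w₀ ∧ 0 ≤ w₁ ∧ w₀ ≠ 0 ∧ w₁ ≠ 0 ∧ w₀ * w₁ = 0 ∧ w₀ * a = w₀ ∧ w₁ * a = w₁) :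
    ∃ e : H, ∀ v, π a' v ∈ Submodule.span ℂ {e} := by
  obtain ⟨x₀, hx₀⟩ : ∃ x₀, π a' x₀ ≠ 0 := by
    by_contra hcon
    push Not at hcon
    exact hπne (ContinuousLinearMap.ext hcon)
  refine ⟨π (a' * a' * a') x₀, ?_⟩
  have hdense := dense_orbit hπ hx₀
  have hcl : IsClosed {v : H | π a' v ∈ Submodule.span ℂ {π (a' * a' * a') x₀}} := by
    have h1 : IsClosed ((Submodule.span ℂ {π (a' * a' * a') x₀} : Submodule ℂ H) : Set H) :=
      Submodule.closed_of_finiteDimensional _
    exact h1.preimage (π a').continuous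
  intro v
  refine hdense.induction_on v hcl ?_
  intro z
  obtain ⟨l, hl⟩ := compress_proportional ha' hne hp hno z
  have h2 : π a' (π z (π a' x₀)) = l • π (a' * a' * a') x₀ := by
    have h3 : π a' (π z (π a' x₀)) = π (a' * z * a') x₀ := by
      rw [map_mul, map_mul]
      rfl
    rw [h3, hl, map_smul]
    rfl
  change π a' (π z (π a' x₀)) ∈ _
  rw [h2]
  exact Submodule.smul_mem _ _ (Submodule.mem_span_singleton_self _)

end Irr

end Vale.Agent.Lib.P070
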