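import Vale.Agent.Lib.P070.Defs

/-!
States on a unital C*-algebra: compactness, convexity, and existence of norm-attaining states.
-/

namespace Vale.Agent.Lib.P070

open scoped ComplexOrder InnerProductSpace
open Complex

section States

variable {B : Type*} [CStarAlgebra B] [PartialOrder B] [StarOrderedRing B]

variable (B) in
/-- The state space of a unital C*-algebra, as a subset of the weak dual. -/
def stateSet : Set (WeakDual ℂ B) := {φ | φ 1 = 1 ∧ ∀ x, 0 ≤ x → 0 ≤ φ x}

lemma mem_stateSet {φ : WeakDual ℂ B} : φ ∈ stateSet B ↔ φ 1 = 1 ∧ ∀ x, 0 ≤ x → 0 ≤ φ x := Iff.rfl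

omit [PartialOrder B] [StarOrderedRing B] in
lemma norm_one_le_one : ‖(1 : B)‖ ≤ 1 := by
  rcases subsingleton_or_nontrivial B with h | h
  · have : (1 : B) = 0 := Subsingleton.elim _ _
    rw [this, norm_zero]; exact zero_le_one
  · exact CStarRing.norm_one.le

lemma state_apply_algebraMap {φ : WeakDual ℂ B} (hφ : φ ∈ stateSet B) (r : ℝ) :
    φ (algebraMap ℝ B r) = r := by
  have : algebraMap ℝ B r = (r : ℂ) • (1 : B) := by
    rw [Algebra.algebraMap_eq_smul_one]
    simp
  rw [this, map_smul, hφ.1]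
  simp

lemma state_le_norm {φ : WeakDual ℂ B} (hφ : φ ∈ stateSet B) {x : B} (hx : 0 ≤ x) :
    φ x ≤ (‖x‖ : ℂ) := by
  have h1 : x ≤ algebraMap ℝ B ‖x‖ := IsSelfAdjoint.le_algebraMap_norm_self (IsSelfAdjoint.of_nonneg hx)
  have h2 := hφ.2 (algebraMap ℝ B ‖x‖ - x) (sub_nonneg.mpr h1)
  rw [map_sub, state_apply_algebraMap hφ] at h2
  exact sub_nonneg.mp h2

lemma state_norm_apply_le_of_nonneg {φ : WeakDual ℂ B} (hφ : φ ∈ stateSet B) {x : B} (hx : 0 ≤ x) :
    ‖φ x‖ ≤ ‖x‖ := by
  have h0 := hφ.2 x hx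
  have h1 := state_le_norm hφ hx
  have h2 : φ x = ((φ x).re : ℂ) := by
    apply Complex.ext
    · simp
    · simp [(Complex.nonneg_iff.mp h0).2.symm]
  rw [h2, Complex.norm_real, Real.norm_eq_abs, abs_of_nonneg (Complex.nonneg_iff.mp h0).1]
  have := (Complex.le_def.mp h1).1
  simpa using this

lemma state_norm_apply_le {φ : WeakDual ℂ B} (hφ : φ ∈ stateSet B) (x : B) :
    ‖φ x‖ ≤ 4 * ‖x‖ := by
  obtain ⟨y, hy0, hyn, hy⟩ := CStarAlgebra.exists_sum_four_nonneg x
  conv_lhs => rw [hy]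
  rw [map_sum]
  calc ‖∑ i : Fin 4, φ (I ^ (i : ℕ) • y i)‖ ≤ ∑ i : Fin 4, ‖φ (I ^ (i : ℕ) • y i)‖ := norm_sum_le _ _
    _ ≤ ∑ _i : Fin 4, ‖x‖ := by
        apply Finset.sum_le_sum
        intro i _
        rw [map_smul, smul_eq_mul, norm_mul, norm_pow, Complex.norm_I, one_pow, one_mul]
        exact (state_norm_apply_le_of_nonneg hφ (hy0 i)).trans (hyn i)
    _ = 4 * ‖x‖ := by simp

lemma convex_stateSet : Convex ℝ (stateSet B) := by
  intro φ hφ ψ hψ a b ha hb hab
  constructor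
  · have : (a • φ + b • ψ) 1 = (a : ℂ) * φ 1 + (b : ℂ) * ψ 1 := by
      rfl
    rw [this, hφ.1, hψ.1]
    norm_cast
    simpa using hab
  · intro x hx
    have : (a • φ + b • ψ) x = (a : ℂ) * φ x + (b : ℂ) * ψ x := by
      rfl
    rw [this]
    have ha' : (0 : ℂ) ≤ (a : ℂ) := by exact_mod_cast ha
    have hb' : (0 : ℂ) ≤ (b : ℂ) := by exact_mod_cast hb
    exact add_nonneg (mul_nonneg ha' (hφ.2 x hx)) (mul_nonneg hb' (hψ.2 x hx))

lemma isClosed_stateSet : IsClosed (stateSet B) := by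
  have h1 : IsClosed {φ : WeakDual ℂ B | φ 1 = 1} :=
    isClosed_eq (WeakDual.eval_continuous (1 : B)) continuous_const
  have h2 : ∀ x : B, IsClosed {φ : WeakDual ℂ B | 0 ≤ φ x} := by
    intro x
    have hc : IsClosed {z : ℂ | 0 ≤ z} := by
      have : {z : ℂ | 0 ≤ z} = {z : ℂ | 0 ≤ z.re} ∩ {z : ℂ | z.im = 0} := by
        ext z
        simp only [Set.mem_setOf_eq, Set.mem_inter_iff, Complex.nonneg_iff]
        constructor
        · rintro ⟨h1, h2⟩; exact ⟨h1, h2.symm⟩
        · rintro ⟨h1, h2⟩; exact ⟨h1, h2.symm⟩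
      rw [this]
      exact (isClosed_le continuous_const Complex.continuous_re).inter
        (isClosed_eq Complex.continuous_im continuous_const)
    exact hc.preimage (WeakDual.eval_continuous x)
  have : stateSet B = {φ : WeakDual ℂ B | φ 1 = 1} ∩ ⋂ x : B, {φ : WeakDual ℂ B | 0 ≤ x → 0 ≤ φ x} := by
    ext φ
    simp [stateSet]
  rw [this]
  apply h1.inter
  apply isClosed_iInter
  intro x
  by_cases hx : 0 ≤ x
  · simpa [hx] using h2 x
  · simp [hx]

lemma isCompact_stateSet : IsCompact (stateSet B) := by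
  have hball := WeakDual.isCompact_closedBall (𝕜 := ℂ) (E := B) (0 : StrongDual ℂ B) 4
  apply hball.of_isClosed_subset isClosed_stateSet
  intro φ hφ
  simp only [Set.mem_preimage, Metric.mem_closedBall, dist_zero_right]
  apply ContinuousLinearMap.opNorm_le_bound _ (by norm_num)
  intro x
  exact state_norm_apply_le hφ x

/-- A linear functional of norm at most one taking the value one at the unit is real on
self-adjoint elements. -/
lemma im_eq_zero_of_norm_le_one (f : StrongDual ℂ B) (hf : ‖f‖ ≤ 1) (h1 : f 1 = 1) {y : B}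
    (hy : IsSelfAdjoint y) : (f y).im = 0 := by
  by_contra hne
  set s := (f y).re with hs
  set t := (f y).im with ht
  -- for every real `l`, `s^2 + (t+l)^2 ≤ ‖y‖^2 + l^2`.
  have key : ∀ l : ℝ, s ^ 2 + (t + l) ^ 2 ≤ ‖y‖ ^ 2 + l ^ 2 := by
    intro l
    set z : B := y + (Complex.I * (l : ℂ)) • (1 : B) with hz
    have hfz : f z = (s : ℂ) + (t + l : ℝ) * Complex.I := by
      rw [hz, map_add, map_smul, h1, smul_eq_mul, mul_one]
      apply Complex.ext <;> simp [hs, ht]
    have hnz : ‖f z‖ ^ 2 = s ^ 2 + (t + l) ^ 2 := by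
      rw [hfz, ← Complex.normSq_eq_norm_sq]
      simp [Complex.normSq_apply]
      ring
    have hstar : star z * z = y * y + algebraMap ℝ B (l ^ 2) := by
      have hy' : star y = y := hy
      have : star ((Complex.I * (l : ℂ)) • (1 : B)) = (-(Complex.I * (l : ℂ))) • (1 : B) := by
        rw [star_smul, star_one]
        congr 1
        simp
      rw [hz, star_add, this, hy', Algebra.algebraMap_eq_smul_one]
      have h2 : (-(Complex.I * (l : ℂ))) * (Complex.I * (l : ℂ)) = ((l ^ 2 : ℝ) : ℂ) := by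
        have : Complex.I * Complex.I = -1 := Complex.I_mul_I
        push_cast
        linear_combination (- (l : ℂ) ^ 2) * this
      have h3 : ((l ^ 2 : ℝ) : ℂ) • (1 : B) = (l ^ 2 : ℝ) • (1 : B) :=
        Complex.coe_smul _ _
      have h4 : (-(Complex.I * (l : ℂ)) • (1 : B)) * ((Complex.I * (l : ℂ)) • (1 : B))
          = (l ^ 2 : ℝ) • (1 : B) := by
        rw [smul_mul_smul_comm, h2, one_mul, h3]
      rw [add_mul, mul_add, mul_add, h4]
      simp only [smul_mul_assoc, mul_smul_comm, one_mul, mul_one]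
      rw [neg_smul]
      abel
    have hnorm : ‖z‖ ^ 2 ≤ ‖y‖ ^ 2 + l ^ 2 := by
      have h4 : ‖z‖ ^ 2 = ‖star z * z‖ := by
        rw [CStarRing.norm_star_mul_self, sq]
      rw [h4, hstar]
      refine (norm_add_le _ _).trans ?_
      have h5 : ‖y * y‖ ≤ ‖y‖ ^ 2 := by
        rw [sq]; exact norm_mul_le _ _
      have h6 : ‖algebraMap ℝ B (l ^ 2)‖ ≤ l ^ 2 := by
        rw [Algebra.algebraMap_eq_smul_one, norm_smul, Real.norm_eq_abs,
          abs_of_nonneg (sq_nonneg l)]
        calc l ^ 2 * ‖(1 : B)‖ ≤ l ^ 2 * 1 := by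
              apply mul_le_mul_of_nonneg_left norm_one_le_one (sq_nonneg l)
          _ = l ^ 2 := mul_one _
      linarith
    have hfn : ‖f z‖ ≤ ‖z‖ := by
      calc ‖f z‖ ≤ ‖f‖ * ‖z‖ := f.le_opNorm z
        _ ≤ 1 * ‖z‖ := by apply mul_le_mul_of_nonneg_right hf (norm_nonneg _)
        _ = ‖z‖ := one_mul _
    have : ‖f z‖ ^ 2 ≤ ‖z‖ ^ 2 := by
      apply pow_le_pow_left₀ (norm_nonneg _) hfn
    linarith
  -- choose `l` large of the same sign as `t`
  have h := key ((‖y‖ ^ 2 + 1) / (2 * t))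
  have ht0 : t ≠ 0 := hne
  have h7 : t * ((‖y‖ ^ 2 + 1) / (2 * t)) = (‖y‖ ^ 2 + 1) / 2 := by
    field_simp
  nlinarith [sq_nonneg s, sq_nonneg t]

/-- A linear functional of norm at most one taking the value one at the unit is positive. -/
lemma nonneg_of_norm_le_one (f : StrongDual ℂ B) (hf : ‖f‖ ≤ 1) (h1 : f 1 = 1) {x : B}
    (hx : 0 ≤ x) : 0 ≤ f x := by
  have hsa : IsSelfAdjoint x := IsSelfAdjoint.of_nonneg hx
  have him := im_eq_zero_of_norm_le_one f hf h1 hsa
  rw [Complex.nonneg_iff]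
  refine ⟨?_, him.symm⟩
  -- `‖x‖ - x` has norm at most `‖x‖`
  set y : B := algebraMap ℝ B ‖x‖ - x with hy
  have hy0 : 0 ≤ y := sub_nonneg.mpr (IsSelfAdjoint.le_algebraMap_norm_self hsa)
  have hyle : y ≤ algebraMap ℝ B ‖x‖ := by
    rw [hy]; exact sub_le_self _ hx
  have hyn : ‖y‖ ≤ ‖x‖ := by
    have := CStarAlgebra.norm_le_norm_of_nonneg_of_le hy0 hyle
    refine this.trans ?_
    rw [Algebra.algebraMap_eq_smul_one, norm_smul, Real.norm_of_nonneg (norm_nonneg _)]
    calc ‖x‖ * ‖(1 : B)‖ ≤ ‖x‖ * 1 := by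
          apply mul_le_mul_of_nonneg_left norm_one_le_one (norm_nonneg _)
      _ = ‖x‖ := mul_one _
  have hfy : f y = (‖x‖ : ℂ) - f x := by
    rw [hy, map_sub, Algebra.algebraMap_eq_smul_one]
    have : (‖x‖ : ℝ) • (1 : B) = (‖x‖ : ℂ) • (1 : B) := by simp
    rw [this, map_smul, h1]
    simp
  have hfyn : ‖f y‖ ≤ ‖x‖ := by
    calc ‖f y‖ ≤ ‖f‖ * ‖y‖ := f.le_opNorm y
      _ ≤ 1 * ‖x‖ := by
          apply mul_le_mul hf hyn (norm_nonneg _) zero_le_one
      _ = ‖x‖ := one_mul _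
  have hre : (f y).re = ‖x‖ - (f x).re := by
    rw [hfy]; simp
  have := Complex.abs_re_le_norm (f y)
  have h2 := le_abs_self (f y).re
  linarith

/-- For a positive element there is a state attaining its norm. -/
lemma exists_state_eq_norm [Nontrivial B] {x : B} (hx : 0 ≤ x) :
    ∃ φ ∈ stateSet B, φ x = (‖x‖ : ℂ) := by
  -- the element `‖x‖ - x` is not invertible
  set y : B := algebraMap ℝ B ‖x‖ - x with hy
  have hsp : ‖x‖ ∈ spectrum ℝ x := CStarAlgebra.norm_mem_spectrum_of_nonneg hx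
  have hnu : ¬ IsUnit y := by
    have := hsp
    rw [spectrum.mem_iff] at this
    exact this
  -- the line through `y`
  set V : Submodule ℂ B := Submodule.span ℂ {y} with hV
  have hdist : ∀ v ∈ V, (1 : ℝ) ≤ ‖(1 : B) - v‖ := by
    intro v hv
    rw [hV, Submodule.mem_span_singleton] at hv
    obtain ⟨c, rfl⟩ := hv
    by_contra hlt
    push Not at hlt
    have hu : IsUnit (c • y) := by
      have := (Units.oneSub ((1 : B) - c • y) hlt).isUnit
      simpa using this
    by_cases hc : c = 0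
    · subst hc
      rw [zero_smul] at hu
      exact not_isUnit_zero hu
    · apply hnu
      have h2 : y = c⁻¹ • (c • y) := by
        rw [smul_smul, inv_mul_cancel₀ hc, one_smul]
      rw [h2]
      have hcu : IsUnit (algebraMap ℂ B c⁻¹) :=
        (IsUnit.mk0 _ (inv_ne_zero hc)).map (algebraMap ℂ B)
      rw [Algebra.smul_def]
      exact hcu.mul hu
  obtain ⟨g, hg1, hg2⟩ := exists_dual_vector'' ℂ (Submodule.Quotient.mk (1 : B) : B ⧸ V)
  have hmk : ‖(Submodule.Quotient.mk (1 : B) : B ⧸ V)‖ = 1 := by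
    apply le_antisymm
    · exact (Submodule.Quotient.norm_mk_le (S := V) (1 : B)).trans norm_one_le_one
    · by_contra hlt
      push Not at hlt
      obtain ⟨m, hm1, hm2⟩ := Submodule.Quotient.norm_mk_lt
        (Submodule.Quotient.mk (1 : B) : B ⧸ V) (ε := 1 - ‖(Submodule.Quotient.mk (1 : B) : B ⧸ V)‖)
        (sub_pos.mpr hlt)
      have hmem : (1 : B) - m ∈ V := by
        rw [← Submodule.Quotient.eq]
        exact hm1.symm
      have := hdist _ hmem
      rw [sub_sub_cancel] at this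
      linarith
  set f : StrongDual ℂ B := g.comp V.mkQL with hf
  have hfa : ∀ a, f a = g (Submodule.Quotient.mk a) := fun a => rfl
  have hfn : ‖f‖ ≤ 1 := by
    apply ContinuousLinearMap.opNorm_le_bound _ zero_le_one
    intro a
    rw [hfa, one_mul]
    calc ‖g (Submodule.Quotient.mk a)‖ ≤ ‖g‖ * ‖(Submodule.Quotient.mk a : B ⧸ V)‖ := g.le_opNorm _
      _ ≤ 1 * ‖a‖ := mul_le_mul hg1 (Submodule.Quotient.norm_mk_le (S := V) a) (norm_nonneg _) zero_le_one
      _ = ‖a‖ := one_mul _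
  have hf1 : f 1 = 1 := by
    rw [hfa, hg2, hmk]
    simp
  have hfy : f y = 0 := by
    rw [hfa]
    have : (Submodule.Quotient.mk y : B ⧸ V) = 0 := by
      rw [Submodule.Quotient.mk_eq_zero]
      exact Submodule.mem_span_singleton_self y
    rw [this, map_zero]
  refine ⟨WeakDual.toStrongDual.symm f, ⟨hf1, fun a ha => nonneg_of_norm_le_one f hfn hf1 ha⟩, ?_⟩
  change f x = _
  have h3 : f y = (‖x‖ : ℂ) - f x := by
    rw [hy, map_sub, Algebra.algebraMap_eq_smul_one]
    have : (‖x‖ : ℝ) • (1 : B) = (‖x‖ : ℂ) • (1 : B) := by simp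
    rw [this, map_smul, hf1]
    simp
  rw [hfy] at h3
  linear_combination h3

end States

end Vale.Agent.Lib.P070
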