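import Vale.Agent.Lib.P070.Rank

/-!
The Cantor scheme: under property (N), either some element has rank at most one in the
irreducible representation, or the range of every nonzero element contains an orthonormal family
indexed by the Cantor space.
-/

namespace Vale.Agent.Lib.P070

universe u

open scoped ComplexOrder InnerProductSpace
open Complex

section Tree

variable {A : Type u} [NonUnitalCStarAlgebra A] [PartialOrder A] [StarOrderedRing A]

variable (A) in
/-- A node of the Cantor scheme: a positive contraction `a` with a plateau `a'`. -/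
structure Node where
  /-- the contraction -/
  a : A
  /-- the plateau element -/
  a' : A
  a_nonneg : 0 ≤ a
  a_norm : ‖a‖ ≤ 1
  a'_nonneg : 0 ≤ a'
  a'_norm : ‖a'‖ = 1
  mul_eq : a' * a = a'

lemma Node.a_norm_eq (n : Node A) : ‖n.a‖ = 1 := by
  apply le_antisymm n.a_norm
  have h := norm_mul_le n.a' n.a
  rw [n.mul_eq, n.a'_norm, one_mul] at h
  exact h

lemma normalized_nonneg {w : A} (hw : 0 ≤ w) : 0 ≤ (‖w‖⁻¹ : ℝ) • w :=
  smul_nonneg (by positivity) hw

lemma normalized_norm {w : A} (hne : w ≠ 0) : ‖(‖w‖⁻¹ : ℝ) • w‖ = 1 := by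
  have hn : 0 < ‖w‖ := norm_pos_iff.mpr hne
  rw [norm_smul, Real.norm_of_nonneg (by positivity)]
  field_simp

/-- The node produced from a nonzero positive element. -/
noncomputable def nodeOf (w : A) (hw : 0 ≤ w) (hne : w ≠ 0) : Node A where
  a := cutA ((‖w‖⁻¹ : ℝ) • w)
  a' := cutA' ((‖w‖⁻¹ : ℝ) • w)
  a_nonneg := cutA_nonneg
  a_norm := cutA_norm_le
  a'_nonneg := cutA'_nonneg
  a'_norm := cutA'_norm (normalized_nonneg hw) (normalized_norm hne)
  mul_eq := cutA'_mul_cutA

lemma nodeOf_fix {w b : A} (hw : 0 ≤ w) (hne : w ≠ 0) (h : w * b = w) :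
    (nodeOf w hw hne).a * b = (nodeOf w hw hne).a := by
  apply cutA_mul_fix (IsSelfAdjoint.of_nonneg (normalized_nonneg hw))
  rw [smul_mul_assoc, h]

lemma nodeOf_orth {w v : A} (hw : 0 ≤ w) (hne : w ≠ 0) (hv : 0 ≤ v) (hvne : v ≠ 0)
    (h : w * v = 0) : (nodeOf w hw hne).a * (nodeOf v hv hvne).a = 0 := by
  apply cutA_orth (IsSelfAdjoint.of_nonneg (normalized_nonneg hw))
    (IsSelfAdjoint.of_nonneg (normalized_nonneg hv))
  rw [smul_mul_smul_comm, h, smul_zero]

lemma nodeOf_factor {w : A} (hw : 0 ≤ w) (hne : w ≠ 0) :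
    (nodeOf w hw hne).a = ((‖w‖⁻¹ : ℝ) • w) * cfcₙ kF ((‖w‖⁻¹ : ℝ) • w) :=
  cutA_eq_mul (IsSelfAdjoint.of_nonneg (normalized_nonneg hw))

/-- Existence of orthogonal children of every node. -/
def AllSplit (A : Type u) [NonUnitalCStarAlgebra A] [PartialOrder A] : Prop :=
  ∀ n : Node A, ∃ w₀ w₁ : A, 0 ≤ w₀ ∧ 0 ≤ w₁ ∧ w₀ ≠ 0 ∧ w₁ ≠ 0 ∧ w₀ * w₁ = 0 ∧
    w₀ * n.a = w₀ ∧ w₁ * n.a = w₁

section Scheme

variable (hsplit : AllSplit A)

include hsplit in
lemma exists_child (n : Node A) : ∃ c : Bool → Node A,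
    (∀ b, (c b).a * n.a = (c b).a) ∧ (c true).a * (c false).a = 0 := by
  obtain ⟨w₀, w₁, h0, h1, hne0, hne1, horth, hf0, hf1⟩ := hsplit n
  refine ⟨fun b => cond b (nodeOf w₀ h0 hne0) (nodeOf w₁ h1 hne1), ?_, ?_⟩
  · intro b
    cases b
    · exact nodeOf_fix h1 hne1 hf1
    · exact nodeOf_fix h0 hne0 hf0
  · exact nodeOf_orth h0 hne0 h1 hne1 horth

/-- The children of a node. -/
noncomputable def child (n : Node A) : Bool → Node A := (exists_child hsplit n).choose

lemma child_fix (n : Node A) (b : Bool) : (child hsplit n b).a * n.a = (child hsplit n b).a :=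
  (exists_child hsplit n).choose_spec.1 b

lemma child_orth (n : Node A) : (child hsplit n true).a * (child hsplit n false).a = 0 :=
  (exists_child hsplit n).choose_spec.2

lemma child_orth' (n : Node A) {b c : Bool} (h : b ≠ c) : (child hsplit n b).a * (child hsplit n c).a = 0 := by
  cases b <;> cases c
  · exact absurd rfl h
  · have h1 := congrArg star (child_orth hsplit n)
    rwa [star_mul, star_zero, (IsSelfAdjoint.of_nonneg (child hsplit n true).a_nonneg).star_eq,
      (IsSelfAdjoint.of_nonneg (child hsplit n false).a_nonneg).star_eq] at h1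
  · exact child_orth hsplit n
  · exact absurd rfl h

/-- The branch of the scheme through a point of the Cantor space. -/
noncomputable def branch (r : Node A) (x : ℕ → Bool) : ℕ → Node A
  | 0 => r
  | k + 1 => child hsplit (branch r x k) (x k)

lemma branch_succ (r : Node A) (x : ℕ → Bool) (k : ℕ) :
    branch hsplit r x (k + 1) = child hsplit (branch hsplit r x k) (x k) := rfl

lemma branch_descent (r : Node A) (x : ℕ → Bool) {ψ : WeakDual ℂ (Unitization ℂ A)}
    (hψ : ψ ∈ stateSet (Unitization ℂ A)) (m : ℕ) (h : ψ (incl (branch hsplit r x m).a) = 1) :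
    ∀ k ≤ m, ψ (incl (branch hsplit r x k).a) = 1 := by
  induction m with
  | zero =>
    intro k hk
    have : k = 0 := by omega
    rw [this]; exact h
  | succ m ih =>
    intro k hk
    rcases Nat.lt_or_ge m k with hlt | hge
    · have : k = m + 1 := by omega
      rw [this]; exact h
    · apply ih _ k hge
      refine state_descent hψ (IsSelfAdjoint.of_nonneg (branch hsplit r x (m + 1)).a_nonneg)
        (IsSelfAdjoint.of_nonneg (branch hsplit r x m).a_nonneg)
        (branch hsplit r x (m + 1)).a_norm ?_ h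
      rw [branch_succ]
      exact child_fix hsplit _ _

lemma branch_agree (r : Node A) {x y : ℕ → Bool} {n : ℕ} (h : ∀ k < n, x k = y k) :
    branch hsplit r x n = branch hsplit r y n := by
  induction n with
  | zero => rfl
  | succ n ih =>
    rw [branch_succ, branch_succ, ih (fun k hk => h k (by omega)), h n (by omega)]

lemma inner_nu_rep_star {H : Type*} [NormedAddCommGroup H] [InnerProductSpace ℂ H] [CompleteSpace H]
    (π : A →⋆ₙₐ[ℂ] (H →L[ℂ] H)) (u v : H) (c : A) :
    ⟪π c u, v⟫_ℂ = ⟪u, π (star c) v⟫_ℂ := by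
  rw [map_star, ContinuousLinearMap.star_eq_adjoint, ContinuousLinearMap.adjoint_inner_right]

include hsplit in
/-- **The Cantor family.** -/
theorem cantor_family (hN : PropertyN A)
    {H : Type u} [NormedAddCommGroup H] [InnerProductSpace ℂ H] [CompleteSpace H]
    (π : A →⋆ₙₐ[ℂ] (H →L[ℂ] H)) (hπ : IsIrreducibleRep π) (r : Node A) :
    ∃ η : (ℕ → Bool) → H, Orthonormal ℂ η ∧ ∀ x, π r.a (η x) = η x := by
  have hex : ∀ x : ℕ → Bool, ∃ η : H, ‖η‖ = 1 ∧ ∀ k, π (branch hsplit r x k).a η = η := by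
    intro x
    apply exists_common_fixed hN π hπ (I := ℕ) (fun k => (branch hsplit r x k).a)
      (fun k => (branch hsplit r x k).a_nonneg) (fun k => (branch hsplit r x k).a_norm)
    intro s
    obtain ⟨ψ, hψ, h1⟩ := exists_state_eq_one (branch hsplit r x (s.sup id)).a_nonneg
      (Node.a_norm_eq _)
    refine ⟨ψ, hψ, fun i hi => ?_⟩
    exact branch_descent hsplit r x hψ _ h1 i (Finset.le_sup (f := id) hi)
  choose η hη hfix using hex
  refine ⟨η, ⟨hη, ?_⟩, fun x => hfix x 0⟩
  intro x y hxy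
  -- the first point of difference
  have hdiff : ∃ k, x k ≠ y k := Function.ne_iff.mp hxy
  classical
  set n := Nat.find hdiff with hn
  have hn1 : x n ≠ y n := Nat.find_spec hdiff
  have hn2 : ∀ k < n, x k = y k := fun k hk => by
    by_contra hne
    exact Nat.find_min hdiff hk hne
  have hagree := branch_agree hsplit r hn2
  have horth : (branch hsplit r x (n + 1)).a * (branch hsplit r y (n + 1)).a = 0 := by
    rw [branch_succ, branch_succ, hagree]
    exact child_orth' hsplit _ hn1
  have h1 := hfix x (n + 1)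
  have h2 := hfix y (n + 1)
  calc ⟪η x, η y⟫_ℂ = ⟪π (branch hsplit r x (n + 1)).a (η x), π (branch hsplit r y (n + 1)).a (η y)⟫_ℂ := by
        rw [h1, h2]
    _ = ⟪η x, π (star (branch hsplit r x (n + 1)).a) (π (branch hsplit r y (n + 1)).a (η y))⟫_ℂ :=
        inner_nu_rep_star π _ _ _
    _ = ⟪η x, π ((branch hsplit r x (n + 1)).a * (branch hsplit r y (n + 1)).a) (η y)⟫_ℂ := by
        rw [(IsSelfAdjoint.of_nonneg (branch hsplit r x (n + 1)).a_nonneg).star_eq, map_mul]
        rfl
    _ = 0 := by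
        rw [horth, map_zero]
        simp

end Scheme

/-- **Dichotomy.** Under property (N): either some element has nonzero image of rank at most one,
or the range of every nonzero element contains a Cantor family of orthonormal vectors. -/
theorem cantor_or_rank (hN : PropertyN A)
    {H : Type u} [NormedAddCommGroup H] [InnerProductSpace ℂ H] [CompleteSpace H]
    (π : A →⋆ₙₐ[ℂ] (H →L[ℂ] H)) (hπ : IsIrreducibleRep π) :
    (∃ b : A, π b ≠ 0 ∧ ∃ e : H, ∀ v, π b v ∈ Submodule.span ℂ {e}) ∨
      ∀ a : A, a ≠ 0 → ∃ η : (ℕ → Bool) → H, Orthonormal ℂ η ∧ ∀ x, η x ∈ Set.range (π a) := by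
  have hinj := rep_injective hN π hπ
  by_cases hsplit : AllSplit A
  · right
    intro a ha
    have hw : a * star a ≠ 0 := fun h => ha ((CStarRing.mul_star_self_eq_zero_iff a).mp h)
    have hw0 : 0 ≤ a * star a := mul_star_self_nonneg a
    obtain ⟨η, hη, hfix⟩ := cantor_family hsplit hN π hπ (nodeOf _ hw0 hw)
    refine ⟨η, hη, fun x => ?_⟩
    set y : A := cfcₙ kF ((‖a * star a‖⁻¹ : ℝ) • (a * star a)) with hy
    have hfac : (nodeOf _ hw0 hw).a = a * ((‖a * star a‖⁻¹ : ℝ) • (star a * y)) := by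
      rw [nodeOf_factor]
      rw [smul_mul_assoc, mul_smul_comm, mul_assoc]
    refine ⟨π ((‖a * star a‖⁻¹ : ℝ) • (star a * y)) (η x), ?_⟩
    have h1 := hfix x
    rw [hfac, map_mul] at h1
    exact h1
  · left
    unfold AllSplit at hsplit
    push Not at hsplit
    obtain ⟨n, hn⟩ := hsplit
    have hne : n.a' ≠ 0 := by
      intro h0
      have := n.a'_norm
      rw [h0, norm_zero] at this
      exact zero_ne_one this
    have hπne : π n.a' ≠ 0 := by
      intro h0
      exact hne (hinj (by rw [h0, map_zero]))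
    refine ⟨n.a', hπne, ?_⟩
    apply rank_le_one hπ (IsSelfAdjoint.of_nonneg n.a'_nonneg) hne n.mul_eq hπne
    rintro ⟨w₀, w₁, h0, h1, hne0, hne1, horth, hf0, hf1⟩
    exact hn w₀ w₁ h0 h1 hne0 hne1 horth hf0 hf1

end Tree

end Vale.Agent.Lib.P070
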