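import Vale.Agent.Lib.P070.Pure

/-!
Faces of the state space; under property (N) every extreme state of the unitization which does not
vanish on the algebra is a vector state of any given irreducible representation.
-/

namespace Vale.Agent.Lib.P070

universe u

open scoped ComplexOrder InnerProductSpace
open Complex

section Faces

variable {B : Type*} [CStarAlgebra B]

lemma segment_apply {φ ψ : WeakDual ℂ B} {a b : ℝ} (x : B) :
    (a • φ + b • ψ) x = (a : ℂ) * φ x + (b : ℂ) * ψ x := rfl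

lemma segment_re {φ ψ : WeakDual ℂ B} {a b : ℝ} (x : B) :
    ((a • φ + b • ψ) x).re = a * (φ x).re + b * (ψ x).re := by
  rw [segment_apply]
  simp

/-- The set where a real-linear functional attains an upper bound is a face. -/
lemma isExtreme_re_eq (C : Set (WeakDual ℂ B)) (x : B) (m : ℝ) (hm : ∀ ψ ∈ C, (ψ x).re ≤ m) :
    IsExtreme ℝ C {ψ | ψ ∈ C ∧ (ψ x).re = m} := by
  refine ⟨fun ψ hψ => hψ.1, ?_⟩
  intro φ₁ hφ₁ φ₂ hφ₂ z hz hseg
  obtain ⟨a, b, ha, hb, hab, rfl⟩ := hseg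
  refine ⟨hφ₁, ?_⟩
  have h0 := hz.2
  rw [segment_re] at h0
  have h1 := hm _ hφ₁
  have h2 := hm _ hφ₂
  by_contra hne
  have h3 : (φ₁ x).re < m := lt_of_le_of_ne h1 hne
  have h4 : a * (φ₁ x).re < a * m := mul_lt_mul_of_pos_left h3 ha
  have h5 : b * (φ₂ x).re ≤ b * m := mul_le_mul_of_nonneg_left h2 hb.le
  have h6 : a * m + b * m = m := by rw [← add_mul, hab, one_mul]
  linarith

lemma isClosed_re_eq {C : Set (WeakDual ℂ B)} (hC : IsClosed C) (x : B) (m : ℝ) :
    IsClosed {ψ : WeakDual ℂ B | ψ ∈ C ∧ (ψ x).re = m} := by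
  have : {ψ : WeakDual ℂ B | ψ ∈ C ∧ (ψ x).re = m} = C ∩ {ψ | (ψ x).re = m} := rfl
  rw [this]
  exact hC.inter (isClosed_eq (Complex.continuous_re.comp (WeakDual.eval_continuous x))
    continuous_const)

variable [PartialOrder B] [StarOrderedRing B]

/-- **Krein-Milman for closed faces of the state space.** -/
lemma exists_extreme_of_isExtreme {G : Set (WeakDual ℂ B)} (hG : IsExtreme ℝ (stateSet B) G)
    (hc : IsClosed G) (hne : G.Nonempty) : ∃ φ ∈ G, φ ∈ (stateSet B).extremePoints ℝ := by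
  have hlc : LocallyConvexSpace ℝ (WeakDual ℂ B) := WeakBilin.locallyConvexSpace
  have hcomp : IsCompact G := isCompact_stateSet.of_isClosed_subset hc hG.1
  obtain ⟨φ, hφ⟩ := hcomp.extremePoints_nonempty hne
  exact ⟨φ, hφ.1, hG.extremePoints_subset_extremePoints hφ⟩

lemma state_re_le_of_norm_le {ψ : WeakDual ℂ B} (hψ : ψ ∈ stateSet B) {x : B} (hx : 0 ≤ x)
    (hn : ‖x‖ ≤ 1) : (ψ x).re ≤ 1 := by
  have := (Complex.le_def.mp (state_le_norm hψ hx)).1
  simp only [Complex.ofReal_re] at this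
  linarith

end Faces

section Fixed

variable {H : Type*} [NormedAddCommGroup H] [InnerProductSpace ℂ H]

/-- A contraction whose numerical value at a unit vector is one fixes the vector. -/
lemma fixed_of_inner_eq_one (T : H →L[ℂ] H) (hT : ‖T‖ ≤ 1) {ξ : H} (hξ : ‖ξ‖ = 1)
    (h : ⟪ξ, T ξ⟫_ℂ = 1) : T ξ = ξ := by
  rw [← sub_eq_zero, ← norm_eq_zero]
  have h1 : ‖T ξ‖ ≤ 1 := by
    calc ‖T ξ‖ ≤ ‖T‖ * ‖ξ‖ := T.le_opNorm ξ
      _ ≤ 1 * 1 := by rw [hξ]; exact mul_le_mul hT le_rfl zero_le_one zero_le_one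
      _ = 1 := one_mul 1
  have h2 : ‖T ξ - ξ‖ ^ 2 = ‖T ξ‖ ^ 2 - 2 * (⟪T ξ, ξ⟫_ℂ).re + ‖ξ‖ ^ 2 :=
    norm_sub_sq (𝕜 := ℂ) (T ξ) ξ
  have h3 : ⟪T ξ, ξ⟫_ℂ = 1 := by
    rw [← inner_conj_symm, h]; simp
  rw [h3, hξ] at h2
  simp only [Complex.one_re] at h2
  have h4 : ‖T ξ‖ ^ 2 ≤ 1 := by
    have := norm_nonneg (T ξ)
    nlinarith
  have h5 : ‖T ξ - ξ‖ ^ 2 ≤ 0 := by linarith
  have h6 := norm_nonneg (T ξ - ξ)
  nlinarith

end Fixed

section Transfer

variable {A : Type u} [NonUnitalCStarAlgebra A]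

/-- The inclusion of `A` into its unitization. -/
noncomputable abbrev incl : A →⋆ₙₐ[ℂ] Unitization ℂ A := Unitization.inrNonUnitalStarAlgHom ℂ A

noncomputable instance instPartialOrderUnitization : PartialOrder (Unitization ℂ A) :=
  CStarAlgebra.spectralOrder _

instance instStarOrderedRingUnitization : StarOrderedRing (Unitization ℂ A) :=
  CStarAlgebra.spectralOrderedRing _

instance instNontrivialUnitization : Nontrivial (Unitization ℂ A) :=
  ⟨⟨0, 1, fun h => by
    have := congrArg (fun x : Unitization ℂ A => x.fst) h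
    simp at this⟩⟩

lemma norm_incl (a : A) : ‖incl a‖ = ‖a‖ := Unitization.norm_inr a

lemma incl_nonneg [PartialOrder A] [StarOrderedRing A] {a : A} (ha : 0 ≤ a) : 0 ≤ incl a := by
  obtain ⟨s, rfl⟩ := CStarAlgebra.nonneg_iff_eq_star_mul_self.mp ha
  rw [map_mul, map_star]
  exact star_mul_self_nonneg _

lemma rep_unit_apply {H : Type*} [NormedAddCommGroup H] [InnerProductSpace ℂ H] [CompleteSpace H]
    (π : Unitization ℂ A →⋆ₐ[ℂ] (H →L[ℂ] H)) (c : ℂ) (x : H) :
    π (Unitization.inl c) x = c • x := by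
  have h1 : Unitization.inl c = algebraMap ℂ (Unitization ℂ A) c := rfl
  rw [h1, AlgHomClass.commutes]
  rfl

lemma rep_invariant_of_incl {H : Type*} [NormedAddCommGroup H] [InnerProductSpace ℂ H]
    [CompleteSpace H] (π : Unitization ℂ A →⋆ₐ[ℂ] (H →L[ℂ] H)) (K : Submodule ℂ H)
    (hinv : ∀ a : A, ∀ x ∈ K, π (incl a) x ∈ K) (b : Unitization ℂ A) {x : H} (hx : x ∈ K) :
    π b x ∈ K := by
  have h1 : b = Unitization.inl b.fst + incl b.snd :=
    (Unitization.inl_fst_add_inr_snd_eq b).symm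
  rw [h1, map_add, add_apply, rep_unit_apply]
  exact K.add_mem (K.smul_mem _ hx) (hinv _ _ hx)

/-- The restriction of a unital representation of the unitization to `A`. -/
noncomputable def restrictRep {H : Type*} [NormedAddCommGroup H] [InnerProductSpace ℂ H]
    [CompleteSpace H] (π : Unitization ℂ A →⋆ₐ[ℂ] (H →L[ℂ] H)) : A →⋆ₙₐ[ℂ] (H →L[ℂ] H) :=
  (π : Unitization ℂ A →⋆ₙₐ[ℂ] (H →L[ℂ] H)).comp incl

lemma restrictRep_apply {H : Type*} [NormedAddCommGroup H] [InnerProductSpace ℂ H]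
    [CompleteSpace H] (π : Unitization ℂ A →⋆ₐ[ℂ] (H →L[ℂ] H)) (a : A) :
    restrictRep π a = π (incl a) := rfl

/-- **Under (N), extreme states not vanishing on `A` are vector states of any irreducible
representation.** -/
theorem exists_vector_of_extreme (hN : PropertyN A)
    {H : Type u} [NormedAddCommGroup H] [InnerProductSpace ℂ H] [CompleteSpace H]
    (π : A →⋆ₙₐ[ℂ] (H →L[ℂ] H)) (hπ : IsIrreducibleRep π)
    {φ : WeakDual ℂ (Unitization ℂ A)} (hφ : φ ∈ (stateSet (Unitization ℂ A)).extremePoints ℝ)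
    {a₀ : A} (h₀ : φ (incl a₀) ≠ 0) :
    ∃ η : H, ‖η‖ = 1 ∧ ∀ a, φ (incl a) = ⟪η, π a η⟫_ℂ := by
  set f := stateToPos φ hφ.1 with hf
  set ξ := vec f 1 with hξ
  have hξn : ‖ξ‖ = 1 := vec_one_norm f hφ.1.1
  have hvf : vecFun f.gnsStarAlgHom ξ = φ := vecFun_vec_one φ hφ.1
  have hirr : IsIrreducibleRep (restrictRep f.gnsStarAlgHom) := by
    constructor
    · refine ⟨a₀, fun h => h₀ ?_⟩
      rw [← hvf, vecFun_apply, ← restrictRep_apply, h]
      simp
    · intro K hK hinv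
      refine irreducible_of_extreme f.gnsStarAlgHom hξn ?_ (by rw [hvf]; exact hφ) K hK ?_
      · intro u hu
        apply eq_zero_of_inner_vec f
        intro b
        have := hu b
        rwa [hξ, gns_apply_vec, mul_one] at this
      · intro b x hx
        exact rep_invariant_of_incl _ K (fun a y hy => hinv a y hy) b hx
  obtain ⟨U, hU⟩ := hN.2 f.GNS H (restrictRep f.gnsStarAlgHom) π hirr hπ
  refine ⟨U ξ, by rw [U.norm_map, hξn], ?_⟩
  intro a
  rw [← hU a ξ, U.inner_map_map, restrictRep_apply, ← hvf, vecFun_apply]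

end Transfer

end Vale.Agent.Lib.P070
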